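import Vale.Agent.P025.R2.H720.NC
import Vale.Agent.P025.R2.H373.Defs

/-!
P025, row A-GRAPH (helper720): the action of a group `G` (acting isometrically and continuously on
`C`) on `C(t)`, `F0`, `F1`, `F2`.
-/

set_option linter.unusedSectionVars false

namespace P025H720

open scoped TensorProduct
open Polynomial P025H373

universe u v w

/-- `G` acts isometrically and continuously on `C` -/
class NormAct (G : Type*) (C : Type*) [Group G] [TopologicalSpace G] [NormedField C]
    [MulSemiringAction G C] : Prop where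
  norm_smul : ∀ (g : G) (c : C), ‖g • c‖ = ‖c‖
  cont : ∀ c : C, Continuous (fun g : G => g • c)

section RatF

variable {G : Type*} [Group G] {C : Type u} [Field C] [MulSemiringAction G C]

/-- the action of `G` on `C(t)` through the coefficients -/
@[reducible] noncomputable def ratAction (G : Type*) [Group G] (C : Type u) [Field C]
    [MulSemiringAction G C] : MulSemiringAction G (RatFunc C) :=
  IsFractionRing.mulSemiringAction G C[X] (RatFunc C)

attribute [scoped instance] ratAction

theorem smul_poly (g : G) (P : C[X]) :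
    g • algebraMap C[X] (RatFunc C) P = algebraMap C[X] (RatFunc C) (g • P) :=
  IsFractionRing.ringEquivOfRingEquiv_algebraMap _ _

theorem smul_ratX (g : G) : g • (RatFunc.X : RatFunc C) = RatFunc.X := by
  rw [← RatFunc.algebraMap_X, smul_poly, Polynomial.smul_X]

theorem smul_ratC (g : G) (c : C) : g • (RatFunc.C c : RatFunc C) = RatFunc.C (g • c) := by
  rw [← RatFunc.algebraMap_C, smul_poly, Polynomial.smul_C, RatFunc.algebraMap_C]

instance equi_C_rat : Equi G C (RatFunc C) where
  smul_algebraMap g c := smul_ratC g c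

end RatF

section Gauss

variable {G : Type*} [Group G] [TopologicalSpace G] {C : Type u} [NormedField C]
  [IsUltrametricDist C] [MulSemiringAction G C] [NormAct G C]

theorem gp_smul (g : G) (P : C[X]) : gp (g • P) = gp P := by
  apply le_antisymm
  · rw [gp_le_iff]
    intro i
    rw [Polynomial.coeff_smul, NormAct.norm_smul]
    exact norm_coeff_le P i
  · rw [gp_le_iff]
    intro i
    rw [← NormAct.norm_smul g, ← Polynomial.coeff_smul]
    exact norm_coeff_le _ i

theorem gauss_smul (g : G) (f : RatFunc C) : gauss C (g • f) = gauss C f := by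
  rw [← f.num_div_denom, smul_div₀', smul_poly, smul_poly, gauss_div, gauss_div, gp_smul, gp_smul]

/-- the action on `WithAbs` -/
noncomputable def gW (g : G) : WithAbs (gauss C) →+* WithAbs (gauss C) :=
  ((WithAbs.equiv (gauss C)).symm.toRingHom.comp
      (MulSemiringAction.toRingHom G (RatFunc C) g)).comp (WithAbs.equiv (gauss C)).toRingHom

theorem norm_gW (g : G) (x : WithAbs (gauss C)) : ‖gW g x‖ = ‖x‖ :=
  gauss_smul g (WithAbs.equiv (gauss C) x)

theorem continuous_gW (g : G) : Continuous (gW g : WithAbs (gauss C) → WithAbs (gauss C)) :=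
  AddMonoidHomClass.continuous_of_bound (gW g) 1 (fun x => by rw [norm_gW, one_mul])

/-- the ring homomorphism of `F0` induced by `g` -/
noncomputable def F0hom (g : G) : F0 C →+* F0 C :=
  UniformSpace.Completion.mapRingHom (α := WithAbs (gauss C)) (β := WithAbs (gauss C))
    (gW g) (continuous_gW g)

theorem F0hom_algebraMap (g : G) (f : RatFunc C) :
    F0hom g (algebraMap (RatFunc C) (F0 C) f) = algebraMap (RatFunc C) (F0 C) (g • f) := by
  have h := UniformSpace.Completion.map_coe (α := WithAbs (gauss C)) (β := WithAbs (gauss C))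
    (f := gW g) (uniformContinuous_addMonoidHom_of_continuous (continuous_gW g))
    (WithAbs.toAbs (gauss C) f)
  exact h

theorem continuous_F0hom (g : G) : Continuous (F0hom g : F0 C → F0 C) :=
  UniformSpace.Completion.continuous_map

theorem F0_induction {p : F0 C → Prop} (x : F0 C) (hc : IsClosed {x | p x})
    (h : ∀ f : RatFunc C, p (algebraMap (RatFunc C) (F0 C) f)) : p x :=
  denseRange_algebraMap.induction_on x hc h

theorem norm_F0hom (g : G) (x : F0 C) : ‖F0hom g x‖ = ‖x‖ := by
  refine F0_induction (p := fun x : F0 C => ‖F0hom g x‖ = ‖x‖) x ?_ ?_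
  · exact isClosed_eq (continuous_F0hom g).norm continuous_norm
  · intro f
    rw [F0hom_algebraMap, P025H373.norm_algebraMap, P025H373.norm_algebraMap, gauss_smul]

theorem F0hom_one (x : F0 C) : F0hom (1 : G) x = x := by
  refine F0_induction (p := fun x : F0 C => F0hom (1 : G) x = x) x ?_ ?_
  · exact isClosed_eq (continuous_F0hom 1) continuous_id
  · intro f
    rw [F0hom_algebraMap, one_smul]

theorem F0hom_mul (g h : G) (x : F0 C) : F0hom (g * h) x = F0hom g (F0hom h x) := by
  refine F0_induction (p := fun x : F0 C => F0hom (g * h) x = F0hom g (F0hom h x)) x ?_ ?_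
  · exact isClosed_eq (continuous_F0hom _) ((continuous_F0hom g).comp (continuous_F0hom h))
  · intro f
    rw [F0hom_algebraMap, F0hom_algebraMap, F0hom_algebraMap, mul_smul]

/-- the action of `G` on `F0` -/
noncomputable instance F0Action : MulSemiringAction G (F0 C) where
  smul g z := F0hom g z
  one_smul z := F0hom_one z
  mul_smul g h z := F0hom_mul g h z
  smul_zero g := map_zero (F0hom g)
  smul_add g x y := map_add (F0hom g) x y
  smul_one g := map_one (F0hom g)
  smul_mul g x y := map_mul (F0hom g) x y

theorem F0_smul_def (g : G) (x : F0 C) : g • x = F0hom g x := rfl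

theorem norm_smul_F0 (g : G) (x : F0 C) : ‖g • x‖ = ‖x‖ := norm_F0hom g x

instance equi_rat_F0 : Equi G (RatFunc C) (F0 C) where
  smul_algebraMap g f := F0hom_algebraMap g f

instance equi_C_F0 : Equi G C (F0 C) where
  smul_algebraMap g c := by
    rw [algebraMap_C_eq, algebraMap_C_eq, Equi.smul_algebraMap (G := G) (F := RatFunc C),
      smul_ratC]

theorem smul_tt (g : G) : g • tt C = tt C := by
  unfold tt
  rw [Equi.smul_algebraMap (G := G) (F := RatFunc C), smul_ratX]

theorem smul_aeval_tt (g : G) (P : C[X]) : g • aeval (tt C) P = aeval (tt C) (g • P) := by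
  unfold tt
  rw [← algebraMap_poly_eq, ← algebraMap_poly_eq, Equi.smul_algebraMap (G := G) (F := RatFunc C),
    smul_poly]

theorem smul_mem_A1 (g : G) {x : F0 C} (hx : x ∈ A1 C) : g • x ∈ A1 C := by
  have h : Set.MapsTo (fun x : F0 C => g • x) (Algebra.adjoin C {tt C} : Set (F0 C))
      (Algebra.adjoin C {tt C} : Set (F0 C)) := by
    intro y hy
    rw [SetLike.mem_coe, Algebra.adjoin_singleton_eq_range_aeval] at hy ⊢
    obtain ⟨P, rfl⟩ := hy
    exact ⟨g • P, (smul_aeval_tt g P).symm⟩
  exact map_mem_closure (continuous_F0hom g) hx h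

theorem smul_mem_pre2 (g : G) {f : RatFunc C} (hf : f ∈ pre2 C) : g • f ∈ pre2 C := by
  obtain ⟨P, S, hS, hd, hn, rfl⟩ := hf
  have hdeg : ∀ Q : C[X], (g • Q).degree = Q.degree := by
    intro Q
    rw [Polynomial.smul_eq_map, Polynomial.degree_map_eq_of_injective]
    exact (MulSemiringAction.toRingHom G C g).injective
  refine ⟨g • P, g • S, ?_, ?_, ?_, ?_⟩
  · rw [Polynomial.smul_eq_map]
    exact hS.map _
  · rw [hdeg, hdeg]; exact hd
  · intro i
    rw [Polynomial.coeff_smul, NormAct.norm_smul]
    exact hn i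
  · rw [smul_div₀', smul_poly, smul_poly]

theorem smul_mem_A2 (g : G) {x : F0 C} (hx : x ∈ A2 C) : g • x ∈ A2 C := by
  have h : Set.MapsTo (fun x : F0 C => g • x) ((pre2 C).map (ιA C) : Set (F0 C))
      ((pre2 C).map (ιA C) : Set (F0 C)) := by
    rintro _ ⟨f, hf, rfl⟩
    exact ⟨g • f, smul_mem_pre2 g hf, (Equi.smul_algebraMap (G := G) (F := RatFunc C) g f).symm⟩
  exact map_mem_closure (continuous_F0hom g) hx h

theorem smul_mem_adjoin (g : G) (S : Set (F0 C)) (hS : ∀ x ∈ S, g • x ∈ S) {x : F0 C}
    (hx : x ∈ IntermediateField.adjoin (RatFunc C) S) :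
    g • x ∈ IntermediateField.adjoin (RatFunc C) S := by
  induction hx using IntermediateField.adjoin_induction with
  | mem x hx => exact IntermediateField.subset_adjoin _ _ (hS x hx)
  | algebraMap f =>
    rw [Equi.smul_algebraMap (G := G) (F := RatFunc C)]
    exact IntermediateField.algebraMap_mem _ _
  | add x y _ _ hx hy => rw [smul_add]; exact add_mem hx hy
  | inv x _ hx => rw [smul_inv'']; exact inv_mem hx
  | mul x y _ _ hx hy => rw [smul_mul']; exact mul_mem hx hy

theorem smul_mem_F1 (g : G) {x : F0 C} (hx : x ∈ F1 C) : g • x ∈ F1 C :=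
  smul_mem_adjoin g _ (fun _ h => smul_mem_A1 g h) hx

theorem smul_mem_F2 (g : G) {x : F0 C} (hx : x ∈ F2 C) : g • x ∈ F2 C :=
  smul_mem_adjoin g _ (fun _ h => smul_mem_A2 g h) hx

noncomputable instance F1Action : MulSemiringAction G (F1 C) where
  smul g z := ⟨g • (z : F0 C), smul_mem_F1 g z.2⟩
  one_smul z := Subtype.ext (one_smul G (z : F0 C))
  mul_smul g h z := Subtype.ext (mul_smul g h (z : F0 C))
  smul_zero g := Subtype.ext (smul_zero g)
  smul_add g x y := Subtype.ext (smul_add g (x : F0 C) y)
  smul_one g := Subtype.ext (smul_one g)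
  smul_mul g x y := Subtype.ext (smul_mul' g (x : F0 C) y)

noncomputable instance F2Action : MulSemiringAction G (F2 C) where
  smul g z := ⟨g • (z : F0 C), smul_mem_F2 g z.2⟩
  one_smul z := Subtype.ext (one_smul G (z : F0 C))
  mul_smul g h z := Subtype.ext (mul_smul g h (z : F0 C))
  smul_zero g := Subtype.ext (smul_zero g)
  smul_add g x y := Subtype.ext (smul_add g (x : F0 C) y)
  smul_one g := Subtype.ext (smul_one g)
  smul_mul g x y := Subtype.ext (smul_mul' g (x : F0 C) y)

instance equi_rat_F1 : Equi G (RatFunc C) (F1 C) where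
  smul_algebraMap g f := Subtype.ext (F0hom_algebraMap g f)

instance equi_rat_F2 : Equi G (RatFunc C) (F2 C) where
  smul_algebraMap g f := Subtype.ext (F0hom_algebraMap g f)

instance equi_F1_F0 : Equi G (F1 C) (F0 C) where
  smul_algebraMap _ _ := rfl

instance equi_F2_F0 : Equi G (F2 C) (F0 C) where
  smul_algebraMap _ _ := rfl

theorem smul_aeval_tt' (g : G) (P : C[X]) : g • aeval (tt C) P =
    ∑ i ∈ Finset.range (P.natDegree + 1), algebraMap C (F0 C) (g • P.coeff i) * tt C ^ i := by
  rw [Polynomial.aeval_eq_sum_range, Finset.smul_sum]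
  apply Finset.sum_congr rfl
  intro i _
  rw [Algebra.smul_def, smul_mul', smul_pow', smul_tt, Equi.smul_algebraMap (G := G) (F := C)]

/-- the action of `G` on `F0` is continuous in `g` -/
theorem continuous_smul_F0 (x : F0 C) : Continuous (fun g : G => g • x) := by
  have h1 : ∀ P : C[X], Continuous (fun g : G => g • aeval (tt C) P) := by
    intro P
    simp only [smul_aeval_tt']
    apply continuous_finsetSum
    intro i _
    apply Continuous.mul _ continuous_const
    exact (continuous_algebraMap C (F0 C)).comp (NormAct.cont _)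
  have h2 : ∀ f : RatFunc C, Continuous (fun g : G => g • algebraMap (RatFunc C) (F0 C) f) := by
    intro f
    have h3 : algebraMap (RatFunc C) (F0 C) f = aeval (tt C) f.num / aeval (tt C) f.denom := by
      conv_lhs => rw [← f.num_div_denom]
      rw [map_div₀, algebraMap_poly_eq, algebraMap_poly_eq]
      rfl
    have h4 : aeval (tt C) f.denom ≠ 0 := by
      intro h0
      have h5 : algebraMap (RatFunc C) (F0 C) (algebraMap C[X] (RatFunc C) f.denom) = 0 := by
        rw [algebraMap_poly_eq]; exact h0
      rw [map_eq_zero] at h5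
      exact RatFunc.algebraMap_ne_zero f.denom_ne_zero h5
    rw [h3]
    simp only [smul_div₀']
    apply (h1 _).div (h1 _)
    intro g
    exact (smul_ne_zero_iff_ne g).mpr h4
  rw [Metric.continuous_iff']
  intro g₀ ε hε
  obtain ⟨f, hf⟩ := denseRange_algebraMap.exists_dist_lt x hε
  have h3 := (Metric.continuous_iff'.mp (h2 f)) g₀ ε hε
  filter_upwards [h3] with g hg
  rw [dist_eq_norm] at hf hg ⊢
  have e1 : g • x - g₀ • x = g • (x - algebraMap (RatFunc C) (F0 C) f) +
      (g • algebraMap (RatFunc C) (F0 C) f - g₀ • algebraMap (RatFunc C) (F0 C) f) +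
      g₀ • (algebraMap (RatFunc C) (F0 C) f - x) := by
    rw [smul_sub, smul_sub]; ring
  rw [e1]
  have e2 := IsUltrametricDist.norm_add_le_max (g • (x - algebraMap (RatFunc C) (F0 C) f) +
      (g • algebraMap (RatFunc C) (F0 C) f - g₀ • algebraMap (RatFunc C) (F0 C) f))
      (g₀ • (algebraMap (RatFunc C) (F0 C) f - x))
  have e3 := IsUltrametricDist.norm_add_le_max (g • (x - algebraMap (RatFunc C) (F0 C) f))
      (g • algebraMap (RatFunc C) (F0 C) f - g₀ • algebraMap (RatFunc C) (F0 C) f)
  rw [norm_smul_F0] at e2 e3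
  rw [norm_sub_rev] at e2
  exact lt_of_le_of_lt e2 (max_lt (lt_of_le_of_lt e3 (max_lt hf hg)) (by
    rw [norm_sub_rev]; rw [norm_sub_rev] at hf; exact hf))

end Gauss

end P025H720
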