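import Vale.Agent.P025.R2.H720.Mu
import Vale.Agent.P025.R2.H544.PatchSpec
import Vale.Agent.P025.R2.H505.SmithSpec

/-!
P025, row A-GRAPH (helper720), file 4: exactness of `0 → Z/n → C(V) ⊕ C(D) → C(E) → 0` for an
algebraic extension `N/F` which contains the `n`-th roots of all `x ∈ N` which are `n`-th powers
in `N1` and in `N2`.
-/

set_option linter.unusedSectionVars false

namespace P025H720

open P025H544 P025H505
open scoped TensorProduct

variable {F F1 F2 F0 : Type*} [Field F] [Field F1] [Field F2] [Field F0]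
  [Algebra F F1] [Algebra F F2] [Algebra F F0] [Algebra F1 F0] [Algebra F2 F0]
  [IsScalarTower F F1 F0] [IsScalarTower F F2 F0] {N : Type*} [Field N] [Algebra F N]

/-- `N` is closed: it contains the `n`-th roots of all elements which are `n`-th powers on both
sides. -/
def TopClosed (F F1 F2 N : Type*) [Field F] [Field F1] [Field F2]
    [Algebra F F1] [Algebra F F2] [Field N] [Algebra F N] (n : ℕ) : Prop :=
  ∀ x : N, x ≠ 0 → (∃ a : F1 ⊗[F] N, a ^ n = (1 : F1) ⊗ₜ[F] x) →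
    (∃ b : F2 ⊗[F] N, b ^ n = (1 : F2) ⊗ₜ[F] x) → ∃ y : N, y ^ n = x

section Basic
variable (F F1 N)

theorem absFlat_tensor (A : Type*) [Field A] [Algebra F A] [Algebra.IsAlgebraic F N]
    [IsReduced (A ⊗[F] N)] : AbsFlat (A ⊗[F] N) := by
  have : Algebra.IsIntegral F N := inferInstance
  exact absFlat_of_integral A (A ⊗[F] N)

end Basic

theorem mul_zpw_units {R : Type*} [CommRing R] {n : ℕ} {a : R} {y : R} (hy : IsUnit y)
    (h : a ^ n = y ^ n) : ∃ z : R, z ^ n = 1 ∧ a = z * y := by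
  obtain ⟨u, rfl⟩ := hy
  refine ⟨a * (↑u⁻¹ : R), ?_, ?_⟩
  · rw [mul_pow, h, ← mul_pow, Units.mul_inv, one_pow]
  · rw [mul_assoc, Units.inv_mul, mul_one]

/-- exactness for the profinite graph of `N` -/
theorem graphExact (hP : Patch F F1 F2 F0) [Algebra.IsAlgebraic F N] [Algebra.IsSeparable F N]
    (n : ℕ) [NeZero n] {ζ : F} (hζ : IsPrimitiveRoot ζ n) (hN : TopClosed F F1 F2 N n) :
    GraphExact n (edge F F1 F0 N) (edge F F2 F0 N) := by
  have hr1 : IsReduced (F1 ⊗[F] N) := isReduced_tensor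
  have hr2 : IsReduced (F2 ⊗[F] N) := isReduced_tensor
  have hr0 : IsReduced (F0 ⊗[F] N) := isReduced_tensor
  refine ⟨Or.inl nonempty_pt, ?_, fun α β h => hP.connected_fun α β h⟩
  intro γ
  obtain ⟨g, hgn, hg⟩ := exists_mu hζ γ
  have hgu : IsUnit g := IsUnit.of_pow_eq_one hgn (NeZero.ne n)
  obtain ⟨gu, hgu'⟩ := hgu
  have hgun : gu ^ n = 1 := by
    apply Units.ext
    rw [Units.val_pow_eq_pow_val, hgu', hgn, Units.val_one]
  obtain ⟨x, a, b, hx0, hab, ha, hb⟩ := hP.exists_xgamma n gu hgun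
  obtain ⟨y, hy⟩ := hN x hx0 ⟨a, ha.symm⟩ ⟨b, hb.symm⟩
  have hy0 : y ≠ 0 := by
    rintro rfl
    rw [zero_pow (NeZero.ne n)] at hy
    exact hx0 hy.symm
  have hy1 : IsUnit ((1 : F1) ⊗ₜ[F] y) := by
    have := (isUnit_iff_ne_zero.mpr hy0).map (Algebra.TensorProduct.includeRight (R := F) (A := F1)
      (B := N))
    simpa using this
  have hy2 : IsUnit ((1 : F2) ⊗ₜ[F] y) := by
    have := (isUnit_iff_ne_zero.mpr hy0).map (Algebra.TensorProduct.includeRight (R := F) (A := F2)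
      (B := N))
    simpa using this
  obtain ⟨a', ha'n, ha'⟩ := mul_zpw_units (n := n) (a := (a : F1 ⊗[F] N)) hy1 (by
    rw [← ha, Algebra.TensorProduct.tmul_pow, one_pow, hy])
  obtain ⟨b', hb'n, hb'⟩ := mul_zpw_units (n := n) (a := (b : F2 ⊗[F] N)) hy2 (by
    rw [← hb, Algebra.TensorProduct.tmul_pow, one_pow, hy])
  obtain ⟨α, hα⟩ := exists_lc hζ ha'n
  obtain ⟨β, hβ⟩ := exists_lc hζ hb'n
  refine ⟨α, β, fun e => ?_⟩
  -- compare
  have h1 : bc F F1 F0 N a' = g * bc F F2 F0 N b' := by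
    have h2 : bc F F1 F0 N a' * ((1 : F0) ⊗ₜ[F] y) =
        g * bc F F2 F0 N b' * ((1 : F0) ⊗ₜ[F] y) := by
      have e1 : bc F F1 F0 N ((1 : F1) ⊗ₜ[F] y) = (1 : F0) ⊗ₜ[F] y := by
        rw [bc_tmul, map_one]
      have e2 : bc F F2 F0 N ((1 : F2) ⊗ₜ[F] y) = (1 : F0) ⊗ₜ[F] y := by
        rw [bc_tmul, map_one]
      calc bc F F1 F0 N a' * ((1 : F0) ⊗ₜ[F] y) = bc F F1 F0 N a := by
            rw [ha', map_mul, e1]
        _ = g * bc F F2 F0 N b := by rw [hab, hgu']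
        _ = g * bc F F2 F0 N b' * ((1 : F0) ⊗ₜ[F] y) := by rw [hb', map_mul, e2, mul_assoc]
    have hy3 : IsUnit ((1 : F0) ⊗ₜ[F] y) := by
      have := (isUnit_iff_ne_zero.mpr hy0).map
        (Algebra.TensorProduct.includeRight (R := F) (A := F0) (B := N))
      simpa using this
    exact hy3.mul_right_cancel h2
  have h3 : Cong ζ (bc F F1 F0 N a') e (α (edge F F1 F0 N e)) :=
    Cong.comap (bc F F1 F0 N) (hα (edge F F1 F0 N e))
  have h4 : Cong ζ (bc F F2 F0 N b') e (β (edge F F2 F0 N e)) :=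
    Cong.comap (bc F F2 F0 N) (hβ (edge F F2 F0 N e))
  have h5 := Cong.mul hζ (hg e) h4
  rw [← h1] at h5
  have h6 := Cong.unique hζ h3 h5
  rw [h6]
  ring

end P025H720
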