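import Vale.Agent.P025.R2.H720.Act

/-!
P025, row A-GRAPH (helper720), file 5: idempotents of `F0 ⊗ N` have open stabilizers.
-/

set_option linter.unusedSectionVars false

namespace P025H720

open P025H544
open scoped TensorProduct

section

variable {G F A N : Type*} [Group G] [TopologicalSpace G] [IsTopologicalGroup G]
  [Field F] [Field A] [Field N] [Algebra F A] [Algebra F N]
  [MulSemiringAction G F] [MulSemiringAction G A] [MulSemiringAction G N]

/-- finite sums of `f ⊗ θ`, `θ` with open stabilizer -/
theorem exists_rep (hspan : Submodule.span F {θ : N | IsOpen (MulAction.stabilizer G θ : Set G)} = ⊤)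
    (z : A ⊗[F] N) : ∃ (ι : Type) (_ : Fintype ι) (f : ι → A) (θ : ι → N),
      (∀ i, IsOpen (MulAction.stabilizer G (θ i) : Set G)) ∧ z = ∑ i, f i ⊗ₜ[F] θ i := by
  induction z using TensorProduct.induction_on with
  | zero => exact ⟨Empty, inferInstance, fun i => i.elim, fun i => i.elim, fun i => i.elim, by simp⟩
  | add x y hx hy =>
    obtain ⟨ι, hι, f, θ, h1, h2⟩ := hx
    obtain ⟨ι', hι', f', θ', h1', h2'⟩ := hy
    refine ⟨ι ⊕ ι', inferInstance, Sum.elim f f', Sum.elim θ θ', ?_, ?_⟩
    · rintro (i | i)
      · exact h1 i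
      · exact h1' i
    · rw [Fintype.sum_sum_type, h2, h2']; rfl
  | tmul a x =>
    have hx : x ∈ Submodule.span F {θ : N | IsOpen (MulAction.stabilizer G θ : Set G)} := by
      rw [hspan]; trivial
    induction hx using Submodule.span_induction generalizing a with
    | mem x hx => exact ⟨Unit, inferInstance, fun _ => a, fun _ => x, fun _ => hx, by simp⟩
    | zero =>
      exact ⟨Empty, inferInstance, fun i => i.elim, fun i => i.elim, fun i => i.elim, by simp⟩
    | add x y _ _ hx hy =>
      obtain ⟨ι, hι, f, θ, h1, h2⟩ := hx a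
      obtain ⟨ι', hι', f', θ', h1', h2'⟩ := hy a
      refine ⟨ι ⊕ ι', inferInstance, Sum.elim f f', Sum.elim θ θ', ?_, ?_⟩
      · rintro (i | i)
        · exact h1 i
        · exact h1' i
      · rw [Fintype.sum_sum_type, TensorProduct.tmul_add, h2, h2']; rfl
    | smul c x _ hx =>
      obtain ⟨ι, hι, f, θ, h1, h2⟩ := hx (c • a)
      exact ⟨ι, hι, f, θ, h1, by rw [TensorProduct.tmul_smul, TensorProduct.smul_tmul', h2]⟩

theorem tL_injective {L L' : Type*} [Field L] [Field L'] [Algebra F L] [Algebra F L']
    (f : L →ₐ[F] L') : Function.Injective (tL F A f) := by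
  have h := Module.Flat.lTensor_preserves_injective_linearMap (M := A) f.toLinearMap
    f.toRingHom.injective
  intro x y hxy
  apply h
  have e : ∀ z : A ⊗[F] L, LinearMap.lTensor A f.toLinearMap z = tL F A f z := by
    intro z
    induction z using TensorProduct.induction_on with
    | zero => rw [map_zero, map_zero]
    | add x y hx hy => rw [map_add, map_add, hx, hy]
    | tmul a x => simp
  rw [e, e]
  exact hxy

theorem finite_idempotents (L : Type*) [Field L] [Algebra F L] [FiniteDimensional F L] :
    {e : A ⊗[F] L | IsIdempotentElem e}.Finite := by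
  have : IsArtinianRing (A ⊗[F] L) := IsArtinianRing.of_finite A _
  have : Finite (PrimeSpectrum (A ⊗[F] L)) := inferInstance
  have : Finite (TopologicalSpace.Clopens (PrimeSpectrum (A ⊗[F] L))) :=
    Finite.of_injective (fun s => (s : Set (PrimeSpectrum (A ⊗[F] L)))) SetLike.coe_injective
  have h : Finite {e : A ⊗[F] L // IsIdempotentElem e} :=
    Finite.of_equiv _ (PrimeSpectrum.isIdempotentElemEquivClopens (R := A ⊗[F] L)).symm.toEquiv
  exact h

/-- idempotents have open stabilizers -/
theorem stabilizer_isOpen [Algebra.IsAlgebraic F N] [TopologicalSpace A] [IsTopologicalRing A]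
    [T1Space A]
    [Equi G F A] [Equi G F N]
    (hcont : ∀ f : A, Continuous (fun g : G => g • f))
    (hspan : Submodule.span F {θ : N | IsOpen (MulAction.stabilizer G θ : Set G)} = ⊤)
    (e : A ⊗[F] N) (he : IsIdempotentElem e) :
    IsOpen (MulAction.stabilizer G e : Set G) := by
  classical
  obtain ⟨ι, hι, f, θ, hθ, hrep⟩ := exists_rep hspan e
  set L : IntermediateField F N := IntermediateField.adjoin F (Set.range θ) with hL
  have hfd : FiniteDimensional F L :=
    IntermediateField.finiteDimensional_adjoin (fun x _ => Algebra.IsIntegral.isIntegral x)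
  have hθL : ∀ i, θ i ∈ L := fun i => IntermediateField.subset_adjoin _ _ ⟨i, rfl⟩
  -- the finite set of idempotents coming from `A ⊗ L`
  set S : Set (A ⊗[F] N) := (tL F A L.val) '' {e : A ⊗[F] L | IsIdempotentElem e} with hS
  have hSf : S.Finite := (finite_idempotents (A := A) L).image _
  -- `U` fixes all `θ i`
  set U : Set G := ⋂ i, (MulAction.stabilizer G (θ i) : Set G) with hU
  have hUo : IsOpen U := isOpen_iInter_of_finite hθ
  have hact : ∀ g ∈ U, actHom F A N g e = ∑ i, (g • f i) ⊗ₜ[F] θ i := by
    intro g hg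
    rw [hrep, map_sum]
    apply Finset.sum_congr rfl
    intro i _
    rw [actHom_tmul]
    congr 1
    exact Set.mem_iInter.mp hg i
  have hmemS : ∀ g ∈ U, actHom F A N g e ∈ S := by
    intro g hg
    have hid : IsIdempotentElem (actHom F A N g e) := he.map (actHom F A N g)
    have h1 : actHom F A N g e =
        tL F A L.val (∑ i, (g • f i) ⊗ₜ[F] (⟨θ i, hθL i⟩ : L)) := by
      rw [hact g hg, map_sum]
      apply Finset.sum_congr rfl
      intro i _
      rw [tL_tmul]; rfl
    rw [h1] at hid ⊢
    refine ⟨_, ?_, rfl⟩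
    show _ * _ = _
    apply tL_injective L.val
    rw [map_mul]
    exact hid
  -- coordinates
  set b := Module.Basis.ofVectorSpace F N with hb
  set B := b.baseChange A with hB
  have hcoord : ∀ j, Continuous (fun g : G => B.repr (∑ i, (g • f i) ⊗ₜ[F] θ i) j) := by
    intro j
    have h1 : (fun g : G => B.repr (∑ i, (g • f i) ⊗ₜ[F] θ i) j) =
        fun g : G => ∑ i, (g • f i) * algebraMap F A (b.repr (θ i) j) := by
      funext g
      rw [map_sum, Finsupp.finsetSum_apply]
      apply Finset.sum_congr rfl
      intro i _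
      rw [hB, Module.Basis.baseChange_repr_tmul, Algebra.smul_def, mul_comm]
    rw [h1]
    exact continuous_finsetSum _ (fun i _ => (hcont (f i)).mul continuous_const)
  -- separating neighbourhoods
  have hsep : ∀ e' ∈ S, e' ≠ e → ∃ V : Set G, IsOpen V ∧ (1 : G) ∈ V ∧
      ∀ g ∈ V, g ∈ U → actHom F A N g e ≠ e' := by
    intro e' _ hne
    have h1 : B.repr e ≠ B.repr e' := fun h => hne (B.repr.injective h).symm
    obtain ⟨j, hj⟩ := DFunLike.ne_iff.mp h1
    refine ⟨(fun g : G => B.repr (∑ i, (g • f i) ⊗ₜ[F] θ i) j) ⁻¹' {B.repr e' j}ᶜ,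
      isOpen_compl_singleton.preimage (hcoord j), ?_, ?_⟩
    · show B.repr (∑ i, ((1 : G) • f i) ⊗ₜ[F] θ i) j ≠ B.repr e' j
      have h2 : ∑ i, ((1 : G) • f i) ⊗ₜ[F] θ i = e := by
        rw [hrep]
        exact Finset.sum_congr rfl (fun i _ => by rw [one_smul])
      rw [h2]
      exact hj
    · intro g hg hgU h3
      rw [hact g hgU] at h3
      exact hg (by show B.repr (∑ i, (g • f i) ⊗ₜ[F] θ i) j = B.repr e' j; rw [h3])
  choose! V hVo hV1 hV using hsep
  set W : Set G := U ∩ ⋂ e' ∈ S \ {e}, V e' with hW
  have hWo : IsOpen W := by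
    apply hUo.inter
    apply Set.Finite.isOpen_biInter (hSf.subset Set.sdiff_subset)
    intro e' he'
    exact hVo e' he'.1 he'.2
  have hW1 : (1 : G) ∈ W := by
    refine ⟨Set.mem_iInter.mpr fun i => Subgroup.one_mem _, ?_⟩
    simp only [Set.mem_iInter]
    intro e' he'
    exact hV1 e' he'.1 he'.2
  have hWfix : ∀ g ∈ W, actHom F A N g e = e := by
    intro g hg
    by_contra hne
    have h1 := hmemS g hg.1
    have h2 : g ∈ V (actHom F A N g e) := by
      have := hg.2
      simp only [Set.mem_iInter] at this
      exact this _ ⟨h1, hne⟩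
    exact hV _ h1 hne g h2 hg.1 rfl
  exact Subgroup.isOpen_of_mem_nhds _ (g := 1)
      (Filter.mem_of_superset (hWo.mem_nhds hW1) (fun g hg => hWfix g hg))

/-- the action of `G` on the points is continuous (version with the topology of `A`) -/
theorem continuousSMul_pt [Algebra.IsAlgebraic F N] [IsReduced (A ⊗[F] N)] [TopologicalSpace A]
    [IsTopologicalRing A] [T1Space A] [Equi G F A] [Equi G F N]
    (hcont : ∀ f : A, Continuous (fun g : G => g • f))
    (hspan : Submodule.span F {θ : N | IsOpen (MulAction.stabilizer G θ : Set G)} = ⊤) :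
    ContinuousSMul G (Pt F A N) := by
  have : Algebra.IsIntegral F N := inferInstance
  exact specAction_continuous (absFlat_of_integral A (A ⊗[F] N))
    (fun e he => stabilizer_isOpen hcont hspan e he)

/-- the action of `G` on the points is continuous (version for `A → B`, topology on `B`) -/
theorem continuousSMul_pt_of_map [Algebra.IsAlgebraic F N] [IsReduced (A ⊗[F] N)]
    {B : Type*} [Field B] [Algebra F B] [Algebra A B] [IsScalarTower F A B]
    [MulSemiringAction G B] [Equi G F A] [Equi G F B] [Equi G A B] [Equi G F N]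
    [TopologicalSpace B] [IsTopologicalRing B] [T1Space B]
    (hcont : ∀ f : B, Continuous (fun g : G => g • f))
    (hspan : Submodule.span F {θ : N | IsOpen (MulAction.stabilizer G θ : Set G)} = ⊤)
    (hinj : Function.Injective (bc F A B N)) :
    ContinuousSMul G (Pt F A N) := by
  have : Algebra.IsIntegral F N := inferInstance
  refine specAction_continuous (absFlat_of_integral A (A ⊗[F] N)) (fun e he => ?_)
  have h := stabilizer_isOpen hcont hspan (bc F A B N e) (he.map (bc F A B N))
  have h2 : MulAction.stabilizer G e = MulAction.stabilizer G (bc F A B N e) := by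
    ext g
    rw [MulAction.mem_stabilizer_iff, MulAction.mem_stabilizer_iff, ← bc_smul]
    exact ⟨fun h => by rw [h], fun h => hinj h⟩
  rw [h2]
  exact h

end

end P025H720
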