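import Vale.Agent.P025.R2.H720.GF
import Vale.Agent.P025.R2.H720.Exact
import Vale.Agent.P025.R2.H720.Stab
import Vale.Agent.P025.R2.H373.Gauss6

/-!
P025, row A-GRAPH (helper720): the profinite graph `V_T, D_T, E_T` of `N` with the action of `G`.

Data: `kb` algebraically closed, `C` complete algebraically closed, `N` of transcendence degree one
over `kb`; `G` acts on `kb`, `C`, `N` compatibly, isometrically and continuously on `C`, with open
stabilizers on `N`; `T : N` transcendental, fixed by `G`.
-/

set_option linter.unusedSectionVars false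

namespace P025H720

open scoped TensorProduct
open Polynomial P025H373 P025H544 P025H505

universe u v w

section NCaction

variable (G : Type*) [Group G] (C : Type u) (kb : Type v) (N : Type w) [Field C] [Field kb]
  [IsAlgClosed kb] [Field N] [Algebra kb C] [Algebra kb N]
  [MulSemiringAction G kb] [MulSemiringAction G C] [MulSemiringAction G N]
  [Equi G kb C] [Equi G kb N]

/-- action of `G` on `NC` -/
@[reducible] noncomputable def ncAction : MulSemiringAction G (NC C kb N) :=
  IsFractionRing.mulSemiringAction G (C ⊗[kb] N) (NC C kb N)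

attribute [scoped instance] ncAction

variable {G C kb N}

theorem smul_algebraMap_tensor (g : G) (z : C ⊗[kb] N) :
    g • algebraMap (C ⊗[kb] N) (NC C kb N) z = algebraMap (C ⊗[kb] N) (NC C kb N) (g • z) :=
  IsFractionRing.ringEquivOfRingEquiv_algebraMap _ _

instance equi_C_NC : Equi G C (NC C kb N) where
  smul_algebraMap g c := by
    rw [algebraMap_C_NC, smul_algebraMap_tensor, smul_tmul_semi, smul_one, algebraMap_C_NC]

instance equi_N_NC : Equi G N (NC C kb N) where
  smul_algebraMap g c := by
    rw [algebraMap_N_NC, smul_algebraMap_tensor, smul_tmul_semi, smul_one, algebraMap_N_NC]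

instance equi_kb_NC : Equi G kb (NC C kb N) where
  smul_algebraMap g c := by
    rw [IsScalarTower.algebraMap_apply kb C (NC C kb N), Equi.smul_algebraMap (G := G) (F := C),
      Equi.smul_algebraMap (G := G) (F := kb), ← IsScalarTower.algebraMap_apply kb C (NC C kb N)]

end NCaction

section NCTaction

/-- `T` is fixed by `G` -/
class FixedT (G : Type*) {N : Type*} [SMul G N] (T : N) : Prop where
  fixed : ∀ g : G, g • T = T

/-- stabilizers are open -/
class OpenStab (G : Type*) (N : Type*) [Group G] [TopologicalSpace G] [MulAction G N] : Prop where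
  isOpen : ∀ x : N, IsOpen (MulAction.stabilizer G x : Set G)

variable (G : Type*) [Group G] (C : Type u) (kb : Type v) (N : Type w) [Field C] [Field kb]
  [IsAlgClosed kb] [Field N] [Algebra kb C] [Algebra kb N]
  [MulSemiringAction G kb] [MulSemiringAction G C] [MulSemiringAction G N]
  [Equi G kb C] [Equi G kb N] (T : N)

noncomputable instance nctAction : MulSemiringAction G (NCT C kb N T) := ncAction G C kb N

instance equi_C_NCT : Equi G C (NCT C kb N T) := inferInstanceAs (Equi G C (NC C kb N))
instance equi_N_NCT : Equi G N (NCT C kb N T) := inferInstanceAs (Equi G N (NC C kb N))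
instance equi_kb_NCT : Equi G kb (NCT C kb N T) := inferInstanceAs (Equi G kb (NC C kb N))

instance equi_rat_NCT [Fact (Transcendental kb T)] [FixedT G T] :
    Equi G (RatFunc C) (NCT C kb N T) where
  smul_algebraMap g f := by
    have h1 : ∀ P : C[X], g • algebraMap (RatFunc C) (NCT C kb N T) (algebraMap C[X] (RatFunc C) P)
        = algebraMap (RatFunc C) (NCT C kb N T) (algebraMap C[X] (RatFunc C) (g • P)) := by
      intro P
      rw [algebraMap_T_poly, algebraMap_T_poly]
      induction P using Polynomial.induction_on' with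
      | add P Q hP hQ => rw [map_add, smul_add, smul_add, map_add, hP, hQ]
      | monomial n a =>
        rw [Polynomial.smul_monomial, Polynomial.aeval_monomial, Polynomial.aeval_monomial,
          smul_mul', smul_pow', Equi.smul_algebraMap (G := G) (F := C),
          Equi.smul_algebraMap (G := G) (F := N), FixedT.fixed (T := T) g]
    conv_lhs => rw [← f.num_div_denom]
    conv_rhs => rw [← f.num_div_denom]
    rw [map_div₀, smul_div₀', h1, h1, smul_div₀', smul_poly, smul_poly, map_div₀]

end NCTaction

section Patch

variable (C : Type u) [NontriviallyNormedField C] [IsUltrametricDist C] [CompleteSpace C]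
  [IsAlgClosed C]

theorem patch : Patch (RatFunc C) (F1 C) (F2 C) (F0 C) where
  inter x y h := by
    have h1 : (x : F0 C) ∈ F1 C ⊓ F2 C := ⟨x.2, by
      have : (x : F0 C) = (y : F0 C) := h
      rw [this]; exact y.2⟩
    rw [F1_inf_F2, IntermediateField.mem_bot] at h1
    obtain ⟨z, hz⟩ := h1
    refine ⟨z, Subtype.ext hz, Subtype.ext ?_⟩
    have h2 : (x : F0 C) = (y : F0 C) := h
    rw [← h2]; exact hz
  fact n g := by
    obtain ⟨a, b, ha, hb, hab⟩ := exists_GL_mul (g : Matrix (Fin n) (Fin n) (F0 C)) g.isUnit
    obtain ⟨a', rfl⟩ := ha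
    obtain ⟨b', rfl⟩ := hb
    refine ⟨a', b', ?_⟩
    apply Units.ext
    exact hab

theorem exists_primitiveRoot_rat [CharZero C] (n : ℕ) [NeZero n] :
    ∃ ζ : RatFunc C, IsPrimitiveRoot ζ n := by
  have : NeZero (n : C) := ⟨Nat.cast_ne_zero.mpr (NeZero.ne n)⟩
  obtain ⟨ζ, hζ⟩ := HasEnoughRootsOfUnity.exists_primitiveRoot C n
  exact ⟨RatFunc.C ζ, hζ.map_of_injective (RatFunc.C_injective)⟩

end Patch

section Graph

variable (C : Type u) (kb : Type v) (N : Type w)
  [NontriviallyNormedField C] [IsUltrametricDist C] [CompleteSpace C] [IsAlgClosed C] [CharZero C]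
  [Field kb] [IsAlgClosed kb] [Field N] [Algebra kb C] [Algebra kb N] [TrdegOne kb N]
  (T : N) [Fact (Transcendental kb T)]

/-- the profinite set of `V`-vertices (functions on `|T| ≤ 1`) -/
abbrev VT : Type _ := Pt (RatFunc C) (F1 C) (NCT C kb N T)

/-- the profinite set of `D`-vertices (functions on `|T| > 1`) -/
abbrev DT : Type _ := Pt (RatFunc C) (F2 C) (NCT C kb N T)

/-- the profinite set of edges -/
abbrev ET : Type _ := Pt (RatFunc C) (F0 C) (NCT C kb N T)

/-- the end point of an edge in `V` -/
noncomputable abbrev toV : ET C kb N T → VT C kb N T :=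
  edge (RatFunc C) (F1 C) (F0 C) (NCT C kb N T)

/-- the end point of an edge in `D` -/
noncomputable abbrev toD : ET C kb N T → DT C kb N T :=
  edge (RatFunc C) (F2 C) (F0 C) (NCT C kb N T)

instance : Algebra.IsSeparable (RatFunc C) (NCT C kb N T) := inferInstance

theorem absFlat_NCT (A : Type*) [Field A] [Algebra (RatFunc C) A] :
    AbsFlat (A ⊗[RatFunc C] NCT C kb N T) := by
  have : IsReduced (A ⊗[RatFunc C] NCT C kb N T) := isReduced_tensor
  have : Algebra.IsIntegral (RatFunc C) (NCT C kb N T) := inferInstance
  exact absFlat_of_integral A (A ⊗[RatFunc C] NCT C kb N T)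

instance totSep_Pt (A : Type*) [Field A] [Algebra (RatFunc C) A] :
    TotallySeparatedSpace (Pt (RatFunc C) A (NCT C kb N T)) :=
  (absFlat_NCT C kb N T A).totallySeparated

theorem continuous_toV : Continuous (toV C kb N T) := PrimeSpectrum.continuous_comap _

theorem continuous_toD : Continuous (toD C kb N T) := PrimeSpectrum.continuous_comap _

/-- (A0.1) -/
theorem graphExact_NCT (n : ℕ) [NeZero n]
    (hcl : TopClosed (RatFunc C) (F1 C) (F2 C) (NCT C kb N T) n) :
    GraphExact n (toV C kb N T) (toD C kb N T) := by
  obtain ⟨ζ, hζ⟩ := exists_primitiveRoot_rat C n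
  exact graphExact (patch C) n hζ hcl

end Graph

section GraphAction

variable (G : Type*) [Group G] [TopologicalSpace G] [IsTopologicalGroup G]
  (C : Type u) (kb : Type v) (N : Type w)
  [NontriviallyNormedField C] [IsUltrametricDist C] [CompleteSpace C] [IsAlgClosed C] [CharZero C]
  [Field kb] [IsAlgClosed kb] [Field N] [Algebra kb C] [Algebra kb N] [TrdegOne kb N]
  [MulSemiringAction G kb] [MulSemiringAction G C] [MulSemiringAction G N]
  [NormAct G C] [OpenStab G N] [Equi G kb C] [Equi G kb N]
  (T : N) [Fact (Transcendental kb T)] [FixedT G T]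

theorem span_openStab : Submodule.span (RatFunc C)
    {θ : NCT C kb N T | IsOpen (MulAction.stabilizer G θ : Set G)} = ⊤ := by
  rw [eq_top_iff, ← span_N C kb N T]
  apply Submodule.span_mono
  rintro _ ⟨x, rfl⟩
  have h1 : MulAction.stabilizer G x ≤
      MulAction.stabilizer G (algebraMap N (NCT C kb N T) x) := by
    intro g hg
    rw [MulAction.mem_stabilizer_iff] at hg ⊢
    rw [Equi.smul_algebraMap (G := G) (F := N), hg]
  exact Subgroup.isOpen_mono h1 (OpenStab.isOpen x)

instance continuousSMul_ET : ContinuousSMul G (ET C kb N T) := by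
  have : IsReduced (F0 C ⊗[RatFunc C] NCT C kb N T) := isReduced_tensor
  exact continuousSMul_pt continuous_smul_F0 (span_openStab G C kb N T)

instance continuousSMul_VT : ContinuousSMul G (VT C kb N T) := by
  have : IsReduced (F1 C ⊗[RatFunc C] NCT C kb N T) := isReduced_tensor
  exact continuousSMul_pt_of_map (B := F0 C) continuous_smul_F0 (span_openStab G C kb N T)
    (bc_injective _ _ _)

instance continuousSMul_DT : ContinuousSMul G (DT C kb N T) := by
  have : IsReduced (F2 C ⊗[RatFunc C] NCT C kb N T) := isReduced_tensor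
  exact continuousSMul_pt_of_map (B := F0 C) continuous_smul_F0 (span_openStab G C kb N T)
    (bc_injective _ _ _)

theorem toV_smul (g : G) (e : ET C kb N T) : toV C kb N T (g • e) = g • toV C kb N T e :=
  edge_smul_semi g e

theorem toD_smul (g : G) (e : ET C kb N T) : toD C kb N T (g • e) = g • toD C kb N T e :=
  edge_smul_semi g e

end GraphAction

end P025H720
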