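import Vale.Agent.P025.R2.H720.Prof
import Vale.Agent.P025.R2.H544.Defs

/-!
P025, row A-GRAPH (helper720), file 3: a group acting semilinearly on tensor products and on
their spectra.
-/

namespace P025H720

open P025H544

open PrimeSpectrum
open scoped TensorProduct

section Semi
variable (F A N : Type*) [CommRing F] [CommRing A] [CommRing N] [Algebra F A] [Algebra F N]

/-- the additive semilinear map `a ⊗ x ↦ f a ⊗ h x`. -/
noncomputable def semiAdd {A' N' : Type*} [CommRing A'] [CommRing N'] [Algebra F A'] [Algebra F N']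
    (s : F →+* F) (f : A →+* A') (h : N →+* N')
    (hf : ∀ r, f (algebraMap F A r) = algebraMap F A' (s r))
    (hh : ∀ r, h (algebraMap F N r) = algebraMap F N' (s r)) : A ⊗[F] N →+ A' ⊗[F] N' :=
  TensorProduct.liftAddHom
    { toFun := fun a =>
        { toFun := fun x => f a ⊗ₜ[F] h x
          map_zero' := by rw [map_zero, TensorProduct.tmul_zero]
          map_add' := fun x y => by rw [map_add, TensorProduct.tmul_add] }
      map_zero' := by
        ext x
        show f 0 ⊗ₜ[F] h x = 0
        rw [map_zero, TensorProduct.zero_tmul]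
      map_add' := fun a b => by
        ext x
        show f (a + b) ⊗ₜ[F] h x = f a ⊗ₜ[F] h x + f b ⊗ₜ[F] h x
        rw [map_add, TensorProduct.add_tmul] }
    (by
      intro r a x
      show f (r • a) ⊗ₜ[F] h x = f a ⊗ₜ[F] h (r • x)
      rw [Algebra.smul_def, Algebra.smul_def, map_mul, map_mul, hf, hh, ← Algebra.smul_def,
        ← Algebra.smul_def, TensorProduct.smul_tmul])

/-- the semilinear ring homomorphism `a ⊗ x ↦ f a ⊗ h x`. -/
noncomputable def semi {A' N' : Type*} [CommRing A'] [CommRing N'] [Algebra F A'] [Algebra F N']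
    (s : F →+* F) (f : A →+* A') (h : N →+* N')
    (hf : ∀ r, f (algebraMap F A r) = algebraMap F A' (s r))
    (hh : ∀ r, h (algebraMap F N r) = algebraMap F N' (s r)) : A ⊗[F] N →+* A' ⊗[F] N' :=
  { semiAdd F A N s f h hf hh with
    map_one' := by
      show f 1 ⊗ₜ[F] h 1 = 1
      rw [map_one, map_one]; rfl
    map_mul' := by
      intro x y
      show semiAdd F A N s f h hf hh (x * y) =
        semiAdd F A N s f h hf hh x * semiAdd F A N s f h hf hh y
      induction x using TensorProduct.induction_on with
      | zero => rw [zero_mul, map_zero, zero_mul]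
      | add x1 x2 h1 h2 => rw [add_mul, map_add, map_add, h1, h2, add_mul]
      | tmul a m =>
        induction y using TensorProduct.induction_on with
        | zero => rw [mul_zero, map_zero, mul_zero]
        | add x1 x2 h1 h2 => rw [mul_add, map_add, map_add, h1, h2, mul_add]
        | tmul b k =>
          rw [Algebra.TensorProduct.tmul_mul_tmul]
          show f (a * b) ⊗ₜ[F] h (m * k) = (f a ⊗ₜ[F] h m) * (f b ⊗ₜ[F] h k)
          rw [Algebra.TensorProduct.tmul_mul_tmul, map_mul, map_mul] }

theorem semi_tmul {A' N' : Type*} [CommRing A'] [CommRing N'] [Algebra F A'] [Algebra F N']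
    (s : F →+* F) (f : A →+* A') (h : N →+* N')
    (hf : ∀ r, f (algebraMap F A r) = algebraMap F A' (s r))
    (hh : ∀ r, h (algebraMap F N r) = algebraMap F N' (s r)) (a : A) (x : N) :
    semi F A N s f h hf hh (a ⊗ₜ[F] x) = f a ⊗ₜ[F] h x := rfl

end Semi

section Action
variable {G : Type*} [Group G]
variable (F A N : Type*) [CommRing F] [CommRing A] [CommRing N] [Algebra F A] [Algebra F N]
  [MulSemiringAction G F] [MulSemiringAction G A] [MulSemiringAction G N]

/-- compatibility of the actions of `G` on `F` and on the `F`-algebra `A` -/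
class Equi (G F A : Type*) [Group G] [CommRing F] [CommRing A] [Algebra F A]
    [MulSemiringAction G F] [MulSemiringAction G A] : Prop where
  smul_algebraMap : ∀ (g : G) (r : F), g • algebraMap F A r = algebraMap F A (g • r)

/-- action of `g` on `A ⊗ N` -/
noncomputable def actHom [Equi G F A] [Equi G F N] (g : G) : A ⊗[F] N →+* A ⊗[F] N :=
  semi F A N (MulSemiringAction.toRingHom G F g) (MulSemiringAction.toRingHom G A g)
    (MulSemiringAction.toRingHom G N g) (Equi.smul_algebraMap g) (Equi.smul_algebraMap g)

variable {F A N}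

theorem actHom_tmul [Equi G F A] [Equi G F N] (g : G) (a : A) (x : N) :
    actHom F A N g (a ⊗ₜ[F] x) = (g • a) ⊗ₜ[F] (g • x) := rfl

theorem actHom_one [Equi G F A] [Equi G F N] (z : A ⊗[F] N) :
    actHom F A N (1 : G) z = z := by
  induction z using TensorProduct.induction_on with
  | zero => rw [map_zero]
  | add x y hx hy => rw [map_add, hx, hy]
  | tmul a x => rw [actHom_tmul, one_smul, one_smul]

theorem actHom_mul [Equi G F A] [Equi G F N] (g h : G) (z : A ⊗[F] N) :
    actHom F A N (g * h) z = actHom F A N g (actHom F A N h z) := by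
  induction z using TensorProduct.induction_on with
  | zero => rw [map_zero, map_zero, map_zero]
  | add x y hx hy => rw [map_add, map_add, map_add, hx, hy]
  | tmul a x => rw [actHom_tmul, actHom_tmul, actHom_tmul, mul_smul, mul_smul]

/-- the semilinear action on `A ⊗ N` (scoped instance: `open P025H720`) -/
@[reducible] noncomputable def tensorAction [Equi G F A] [Equi G F N] :
    MulSemiringAction G (A ⊗[F] N) where
  smul g z := actHom F A N g z
  one_smul z := actHom_one z
  mul_smul g h z := actHom_mul g h z
  smul_zero g := map_zero (actHom F A N g)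
  smul_add g x y := map_add (actHom F A N g) x y
  smul_one g := map_one (actHom F A N g)
  smul_mul g x y := map_mul (actHom F A N g) x y

attribute [scoped instance] tensorAction

theorem smul_tmul_semi [Equi G F A] [Equi G F N] (g : G) (a : A) (x : N) :
    g • (a ⊗ₜ[F] x) = (g • a) ⊗ₜ[F] (g • x) := rfl

/-- base change maps are equivariant -/
theorem bc_smul {B : Type*} [CommRing B] [Algebra F B] [Algebra A B] [IsScalarTower F A B]
    [MulSemiringAction G B] [Equi G F A] [Equi G F B] [Equi G A B] [Equi G F N]
    (g : G) (z : A ⊗[F] N) : bc F A B N (g • z) = g • bc F A B N z := by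
  induction z using TensorProduct.induction_on with
  | zero => rw [smul_zero, map_zero, smul_zero]
  | add x y hx hy => rw [smul_add, map_add, map_add, hx, hy, smul_add]
  | tmul a x =>
    rw [smul_tmul_semi, bc_tmul, bc_tmul, smul_tmul_semi, Equi.smul_algebraMap]

/-- equivariant maps `L → L'` give equivariant maps -/
theorem tL_smul {N' : Type*} [CommRing N'] [Algebra F N'] [MulSemiringAction G N']
    [Equi G F A] [Equi G F N] [Equi G F N'] (f : N →ₐ[F] N')
    (hf : ∀ (g : G) (x : N), f (g • x) = g • f x)
    (g : G) (z : A ⊗[F] N) : tL F A f (g • z) = g • tL F A f z := by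
  induction z using TensorProduct.induction_on with
  | zero => rw [smul_zero, map_zero, smul_zero]
  | add x y hx hy => rw [smul_add, map_add, map_add, hx, hy, smul_add]
  | tmul a x =>
    rw [smul_tmul_semi, tL_tmul, tL_tmul, smul_tmul_semi, hf]

end Action

section Spec
variable {G : Type*} [Group G] {R : Type*} [CommRing R] [MulSemiringAction G R]

theorem mem_smul_iff (g : G) (P : PrimeSpectrum R) (x : R) :
    x ∈ (g • P).asIdeal ↔ g⁻¹ • x ∈ P.asIdeal := Iff.rfl

theorem smul_mem_smul_iff (g : G) (P : PrimeSpectrum R) (x : R) :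
    g • x ∈ (g • P).asIdeal ↔ x ∈ P.asIdeal := by
  rw [mem_smul_iff, inv_smul_smul]

theorem comap_smul {S : Type*} [CommRing S] [MulSemiringAction G S] (φ : R →+* S)
    (hφ : ∀ (g : G) (x : R), φ (g • x) = g • φ x) (g : G) (P : PrimeSpectrum S) :
    PrimeSpectrum.comap φ (g • P) = g • PrimeSpectrum.comap φ P := by
  apply PrimeSpectrum.ext
  ext x
  show g⁻¹ • φ x ∈ P.asIdeal ↔ φ (g⁻¹ • x) ∈ P.asIdeal
  rw [hφ]

/-- the action is continuous if idempotents have open stabilizers -/
theorem specAction_continuous [TopologicalSpace G] [IsTopologicalGroup G] (h : AbsFlat R)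
    (hst : ∀ e : R, IsIdempotentElem e → IsOpen (MulAction.stabilizer G e : Set G)) :
    ContinuousSMul G (PrimeSpectrum R) := by
  constructor
  rw [PrimeSpectrum.isTopologicalBasis_basic_opens.continuous_iff]
  rintro _ ⟨x, rfl⟩
  obtain ⟨e, he, hxe⟩ := h.exists_idem x
  rw [isOpen_iff_forall_mem_open]
  rintro ⟨g₀, P₀⟩ hmem
  have h0 : g₀⁻¹ • e ∉ P₀.asIdeal := by
    have h1 : x ∉ (g₀ • P₀).asIdeal := hmem
    rw [hxe] at h1
    exact h1
  refine ⟨{g : G | g⁻¹ • e = g₀⁻¹ • e} ×ˢ (basicOpen (g₀⁻¹ • e) : Set (PrimeSpectrum R)),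
    ?_, ?_, ?_⟩
  · rintro ⟨g, P⟩ ⟨hg, hP⟩
    have hg' : g⁻¹ • e = g₀⁻¹ • e := hg
    have hP' : g₀⁻¹ • e ∉ P.asIdeal := hP
    show x ∉ (g • P).asIdeal
    rw [hxe]
    show g⁻¹ • e ∉ P.asIdeal
    rw [hg']
    exact hP'
  · apply IsOpen.prod _ (basicOpen _).2
    have h2 : {g : G | g⁻¹ • e = g₀⁻¹ • e} =
        (fun g : G => g * g₀⁻¹) ⁻¹' (MulAction.stabilizer G e : Set G) := by
      ext g
      show g⁻¹ • e = g₀⁻¹ • e ↔ g * g₀⁻¹ ∈ MulAction.stabilizer G e
      rw [MulAction.mem_stabilizer_iff, mul_smul]
      constructor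
      · intro h3
        rw [← h3, smul_inv_smul]
      · intro h3
        conv_lhs => rw [← h3]
        rw [inv_smul_smul]
    rw [h2]
    exact (hst e he).preimage (continuous_mul_const _)
  · exact ⟨rfl, h0⟩

end Spec

section Edge
variable {G : Type*} [Group G]
variable {F A B N : Type*} [CommRing F] [CommRing A] [CommRing B] [CommRing N] [Algebra F A]
  [Algebra F B] [Algebra A B] [IsScalarTower F A B] [Algebra F N]
  [MulSemiringAction G F] [MulSemiringAction G A] [MulSemiringAction G B] [MulSemiringAction G N]
  [Equi G F A] [Equi G F B] [Equi G A B] [Equi G F N]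

/-- end points of edges are equivariant -/
theorem edge_smul_semi (g : G) (e : Pt F B N) : edge F A B N (g • e) = g • edge F A B N e :=
  comap_smul (bc F A B N).toRingHom (fun g x => bc_smul g x) g e

/-- restriction of points is equivariant -/
theorem ptMap_smul_semi {N' : Type*} [CommRing N'] [Algebra F N'] [MulSemiringAction G N']
    [Equi G F N'] (f : N →ₐ[F] N') (hf : ∀ (g : G) (x : N), f (g • x) = g • f x)
    (g : G) (e : Pt F A N') : ptMap F A f (g • e) = g • ptMap F A f e :=
  comap_smul (tL F A f).toRingHom (fun g x => tL_smul f hf g x) g e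

end Edge

end P025H720
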