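import Vale.Agent.P025.R2.H720.Dom
import Vale.Agent.P025.R2.H720.Act

/-!
P025, row A-GRAPH (helper720): the base change field `NC C kb N = Frac (C ⊗[kb] N)`, its
`C(t)`-algebra structures and the action of `G`.
-/

set_option linter.unusedSectionVars false

namespace P025H720

open scoped TensorProduct
open Polynomial

universe u v w

section Def

variable (C : Type u) (kb : Type v) (N : Type w) [Field C] [Field kb] [Field N] [Algebra kb C]
  [Algebra kb N]

/-- the base change field `Frac (C ⊗ N)` -/
def NC : Type (max u w) := FractionRing (C ⊗[kb] N)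

noncomputable instance : CommRing (NC C kb N) := inferInstanceAs (CommRing (FractionRing (C ⊗[kb] N)))

noncomputable instance : Algebra (C ⊗[kb] N) (NC C kb N) :=
  inferInstanceAs (Algebra (C ⊗[kb] N) (FractionRing (C ⊗[kb] N)))

instance : IsFractionRing (C ⊗[kb] N) (NC C kb N) :=
  inferInstanceAs (IsFractionRing (C ⊗[kb] N) (FractionRing (C ⊗[kb] N)))

noncomputable instance algC : Algebra C (NC C kb N) :=
  ((algebraMap (C ⊗[kb] N) (NC C kb N)).comp (algebraMap C (C ⊗[kb] N))).toAlgebra

noncomputable instance algN : Algebra N (NC C kb N) :=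
  ((algebraMap (C ⊗[kb] N) (NC C kb N)).comp
    (Algebra.TensorProduct.includeRight (R := kb) (A := C) (B := N)).toRingHom).toAlgebra

noncomputable instance algkb : Algebra kb (NC C kb N) :=
  ((algebraMap C (NC C kb N)).comp (algebraMap kb C)).toAlgebra

instance : IsScalarTower kb C (NC C kb N) := IsScalarTower.of_algebraMap_eq' rfl

instance : IsScalarTower kb N (NC C kb N) := by
  apply IsScalarTower.of_algebraMap_eq
  intro x
  show algebraMap (C ⊗[kb] N) (NC C kb N) (algebraMap kb C x ⊗ₜ[kb] 1) =
    algebraMap (C ⊗[kb] N) (NC C kb N) (1 ⊗ₜ[kb] algebraMap kb N x)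
  congr 1
  rw [Algebra.algebraMap_eq_smul_one, Algebra.algebraMap_eq_smul_one, TensorProduct.smul_tmul]

theorem algebraMap_C_NC (c : C) :
    algebraMap C (NC C kb N) c = algebraMap (C ⊗[kb] N) (NC C kb N) (c ⊗ₜ[kb] 1) := rfl

theorem algebraMap_N_NC (x : N) :
    algebraMap N (NC C kb N) x = algebraMap (C ⊗[kb] N) (NC C kb N) (1 ⊗ₜ[kb] x) := rfl

variable [IsAlgClosed kb]

instance : IsDomain (C ⊗[kb] N) := isDomain_tensor kb C N

noncomputable instance : Field (NC C kb N) :=
  inferInstanceAs (Field (FractionRing (C ⊗[kb] N)))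

end Def

section Tm

variable (C : Type u) (kb : Type v) (N : Type w) [Field C] [Field kb] [IsAlgClosed kb] [Field N]
  [Algebra kb C] [Algebra kb N]

theorem algebraMap_tensor_injective : Function.Injective (algebraMap (C ⊗[kb] N) (NC C kb N)) :=
  IsFractionRing.injective (C ⊗[kb] N) (NC C kb N)

theorem tmul_eq (c : C) (x : N) : algebraMap (C ⊗[kb] N) (NC C kb N) (c ⊗ₜ[kb] x) =
    algebraMap C (NC C kb N) c * algebraMap N (NC C kb N) x := by
  rw [algebraMap_C_NC, algebraMap_N_NC, ← map_mul, Algebra.TensorProduct.tmul_mul_tmul, mul_one,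
    one_mul]

/-- linear disjointness -/
theorem linearIndependent_NC {ι : Type*} {b : ι → N} (hb : LinearIndependent kb b) :
    LinearIndependent C (fun i => algebraMap N (NC C kb N) (b i)) := by
  have h1 : LinearIndependent C (fun i => (1 : C) ⊗ₜ[kb] b i) :=
    Module.Flat.linearIndependent_one_tmul hb
  rw [linearIndependent_iff] at h1 ⊢
  intro l hl
  apply h1
  apply algebraMap_tensor_injective C kb N
  rw [map_zero, ← hl, Finsupp.linearCombination_apply, Finsupp.linearCombination_apply,
    Finsupp.sum, Finsupp.sum, map_sum]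
  apply Finset.sum_congr rfl
  intro i _
  rw [Algebra.smul_def, Algebra.smul_def, algebraMap_C_NC, algebraMap_N_NC, ← map_mul]
  rfl

theorem algebraMap_C_injective : Function.Injective (algebraMap C (NC C kb N)) :=
  (algebraMap C (NC C kb N)).injective

theorem trans_iff {F E : Type*} [Field F] [Field E] [Algebra F E] {x : E} :
    Transcendental F x ↔ LinearIndependent F (fun i : ℕ => x ^ i) := by
  rw [transcendental_iff, linearIndependent_iff']
  constructor
  · intro h s g hg i hi
    have h1 : (∑ i ∈ s, Polynomial.C (g i) * Polynomial.X ^ i : F[X]) = 0 := by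
      apply h
      rw [map_sum, ← hg]
      apply Finset.sum_congr rfl
      intro i _
      rw [map_mul, Polynomial.aeval_C, map_pow, Polynomial.aeval_X, Algebra.smul_def]
    have h2 := congrArg (fun P => Polynomial.coeff P i) h1
    simp only [Polynomial.finsetSum_coeff, Polynomial.coeff_C_mul, Polynomial.coeff_X_pow,
      Polynomial.coeff_zero] at h2
    rw [Finset.sum_eq_single i] at h2
    · simpa using h2
    · intro j _ hj
      rw [if_neg hj.symm, mul_zero]
    · intro h3
      exact absurd hi h3
  · intro h P hP
    rw [Polynomial.aeval_eq_sum_range] at hP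
    have h1 := h _ _ hP
    ext i
    rw [Polynomial.coeff_zero]
    by_cases hi : i ∈ Finset.range (P.natDegree + 1)
    · exact h1 i hi
    · apply Polynomial.coeff_eq_zero_of_natDegree_lt
      rw [Finset.mem_range] at hi
      omega

/-- transcendental elements of `N` are transcendental over `C` -/
theorem transcendental_NC {T : N} (hT : Transcendental kb T) :
    Transcendental C (algebraMap N (NC C kb N) T) := by
  have h2 := linearIndependent_NC C kb N (trans_iff.mp hT)
  rw [trans_iff]
  simpa using h2

end Tm

section NCT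

variable (C : Type u) (kb : Type v) (N : Type w) [Field C] [Field kb] [IsAlgClosed kb] [Field N]
  [Algebra kb C] [Algebra kb N]

/-- the field `NC` with the `C(t)`-algebra structure `t ↦ T` -/
def NCT (_T : N) : Type (max u w) := NC C kb N

variable (T : N)

noncomputable instance : Field (NCT C kb N T) := inferInstanceAs (Field (NC C kb N))
noncomputable instance : Algebra C (NCT C kb N T) := inferInstanceAs (Algebra C (NC C kb N))
noncomputable instance : Algebra kb (NCT C kb N T) := inferInstanceAs (Algebra kb (NC C kb N))
noncomputable instance : Algebra N (NCT C kb N T) := inferInstanceAs (Algebra N (NC C kb N))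
instance : IsScalarTower kb C (NCT C kb N T) :=
  inferInstanceAs (IsScalarTower kb C (NC C kb N))
instance : IsScalarTower kb N (NCT C kb N T) :=
  inferInstanceAs (IsScalarTower kb N (NC C kb N))

/-- the map `C(t) → NC`, `t ↦ T` -/
noncomputable def structT (hT : Transcendental kb T) : RatFunc C →+* NCT C kb N T :=
  RatFunc.liftRingHom (Polynomial.aeval (R := C) (algebraMap N (NCT C kb N T) T)).toRingHom (by
    intro P hP
    rw [Submonoid.mem_comap, mem_nonZeroDivisors_iff_ne_zero]
    intro h
    have h1 : Transcendental C (algebraMap N (NC C kb N) T) := transcendental_NC C kb N hT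
    rw [transcendental_iff] at h1
    exact nonZeroDivisors.ne_zero hP (h1 P h))

noncomputable instance algT [hT : Fact (Transcendental kb T)] :
    Algebra (RatFunc C) (NCT C kb N T) := (structT C kb N T hT.out).toAlgebra

theorem algebraMap_T_poly [Fact (Transcendental kb T)] (P : C[X]) :
    algebraMap (RatFunc C) (NCT C kb N T) (algebraMap C[X] (RatFunc C) P) =
      Polynomial.aeval (algebraMap N (NCT C kb N T) T) P :=
  RatFunc.liftRingHom_algebraMap _ _ _

theorem algebraMap_T_X [Fact (Transcendental kb T)] :
    algebraMap (RatFunc C) (NCT C kb N T) RatFunc.X = algebraMap N (NCT C kb N T) T := by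
  rw [← RatFunc.algebraMap_X, algebraMap_T_poly, Polynomial.aeval_X]

theorem algebraMap_T_C [Fact (Transcendental kb T)] (c : C) :
    algebraMap (RatFunc C) (NCT C kb N T) (RatFunc.C c) = algebraMap C (NCT C kb N T) c := by
  rw [← RatFunc.algebraMap_C, algebraMap_T_poly, Polynomial.aeval_C]

instance [Fact (Transcendental kb T)] : IsScalarTower C (RatFunc C) (NCT C kb N T) := by
  apply IsScalarTower.of_algebraMap_eq
  intro c
  exact (algebraMap_T_C C kb N T c).symm

end NCT

section Alg

variable (C : Type u) (kb : Type v) (N : Type w) [Field C] [Field kb] [IsAlgClosed kb] [Field N]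
  [Algebra kb C] [Algebra kb N]

/-- `N` is algebraic over `kb(T)` for every transcendental `T` -/
class TrdegOne (kb : Type v) (N : Type w) [Field kb] [Field N] [Algebra kb N] : Prop where
  alg : ∀ T x : N, Transcendental kb T → IsAlgebraic (Algebra.adjoin kb {T}) x

variable (T : N) [hT : Fact (Transcendental kb T)] [TrdegOne kb N]

theorem isAlgebraic_N (x : N) : IsAlgebraic (RatFunc C) (algebraMap N (NCT C kb N T) x) := by
  obtain ⟨P, hP0, hP⟩ := TrdegOne.alg T x hT.out
  -- the map `kb[T] → C(t)`
  have hT' : Function.Injective (Polynomial.aeval (R := kb) T) :=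
    transcendental_iff_injective.mp hT.out
  let e : Polynomial kb ≃ₐ[kb] Algebra.adjoin kb {T} :=
    (AlgEquiv.ofInjective (Polynomial.aeval (R := kb) T) hT').trans
      (Subalgebra.equivOfEq _ _ (Algebra.adjoin_singleton_eq_range_aeval kb T).symm)
  have he : ∀ Q : Polynomial kb, ((e Q : Algebra.adjoin kb {T}) : N) = Polynomial.aeval T Q :=
    fun Q => rfl
  let f : Polynomial kb →+* RatFunc C :=
    (algebraMap (Polynomial C) (RatFunc C)).comp (Polynomial.mapRingHom (algebraMap kb C))
  have hf : Function.Injective f := by
    intro x y hxy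
    have h1 := RatFunc.algebraMap_injective C hxy
    exact Polynomial.map_injective _ (algebraMap kb C).injective h1
  have hfN : ∀ Q : Polynomial kb, algebraMap (RatFunc C) (NCT C kb N T) (f Q) =
      algebraMap N (NCT C kb N T) (Polynomial.aeval T Q) := by
    intro Q
    show algebraMap (RatFunc C) (NCT C kb N T) (algebraMap C[X] (RatFunc C)
      (Polynomial.map (algebraMap kb C) Q)) = _
    rw [algebraMap_T_poly, Polynomial.aeval_map_algebraMap, ← Polynomial.aeval_algebraMap_apply]
  let g : Algebra.adjoin kb {T} →+* RatFunc C := f.comp e.symm.toRingEquiv.toRingHom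
  have hg : Function.Injective g := hf.comp e.symm.injective
  have hgN : ∀ a : Algebra.adjoin kb {T}, algebraMap (RatFunc C) (NCT C kb N T) (g a) =
      algebraMap N (NCT C kb N T) (a : N) := by
    intro a
    obtain ⟨Q, rfl⟩ := e.surjective a
    show algebraMap (RatFunc C) (NCT C kb N T) (f (e.symm (e Q))) = _
    rw [AlgEquiv.symm_apply_apply, hfN, he]
  refine ⟨P.map g, ?_, ?_⟩
  · intro h
    exact hP0 ((Polynomial.map_eq_zero_iff hg).mp h)
  · rw [Polynomial.aeval_def, Polynomial.eval₂_map]
    have h1 : (algebraMap (RatFunc C) (NCT C kb N T)).comp g =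
        (algebraMap N (NCT C kb N T)).comp (algebraMap (Algebra.adjoin kb {T}) N) := by
      ext a
      exact hgN a
    rw [h1, ← Polynomial.hom_eval₂]
    rw [Polynomial.aeval_def] at hP
    rw [hP, map_zero]

/-- `NC` is spanned by `N` over `C(t)` -/
theorem span_N : Submodule.span (RatFunc C) (Set.range (algebraMap N (NCT C kb N T))) = ⊤ := by
  -- the subalgebra generated by `N`
  let S : Subalgebra (RatFunc C) (NCT C kb N T) :=
    Algebra.adjoin (RatFunc C) (Set.range (algebraMap N (NCT C kb N T)))
  have hS : Subalgebra.toSubmodule S =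
      Submodule.span (RatFunc C) (Set.range (algebraMap N (NCT C kb N T))) := by
    rw [Algebra.adjoin_eq_span]
    congr 1
    have : Set.range (algebraMap N (NCT C kb N T)) =
        ((MonoidHom.mrange (algebraMap N (NCT C kb N T)).toMonoidHom : Submonoid _) : Set _) := rfl
    rw [this, Submonoid.closure_eq]
  have hint : Algebra.IsIntegral (RatFunc C) S := by
    apply Algebra.IsIntegral.adjoin
    rintro _ ⟨x, rfl⟩
    exact (isAlgebraic_N C kb N T x).isIntegral
  have hinv : ∀ x ∈ S, x⁻¹ ∈ S := by
    intro x hx
    exact hint.inv_mem hx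
  rw [← hS, eq_top_iff]
  intro z _
  show z ∈ S
  obtain ⟨a, b, hb, hab⟩ := IsFractionRing.div_surjective (A := C ⊗[kb] N) (K := NC C kb N) z
  have hmem : ∀ a : C ⊗[kb] N, (algebraMap (C ⊗[kb] N) (NC C kb N) a : NCT C kb N T) ∈ S := by
    intro a
    induction a using TensorProduct.induction_on with
    | zero => rw [map_zero]; exact S.zero_mem
    | add x y hx hy => rw [map_add]; exact S.add_mem hx hy
    | tmul c x =>
      rw [tmul_eq]
      apply S.mul_mem
      · have h1 : (algebraMap C (NC C kb N) c : NCT C kb N T) =
            algebraMap (RatFunc C) (NCT C kb N T) (RatFunc.C c) :=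
          (algebraMap_T_C C kb N T c).symm
        rw [h1]
        exact S.algebraMap_mem _
      · exact Algebra.subset_adjoin ⟨x, rfl⟩
  rw [← hab, div_eq_mul_inv]
  exact S.mul_mem (hmem a) (hinv _ (hmem b))

instance : Algebra.IsAlgebraic (RatFunc C) (NCT C kb N T) := by
  constructor
  intro z
  have hz : z ∈ Submodule.span (RatFunc C) (Set.range (algebraMap N (NCT C kb N T))) := by
    rw [span_N]; trivial
  induction hz using Submodule.span_induction with
  | mem x hx => obtain ⟨y, rfl⟩ := hx; exact isAlgebraic_N C kb N T y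
  | zero => exact isAlgebraic_zero
  | add x y _ _ hx hy => exact hx.add hy
  | smul c x _ hx => exact hx.smul c

end Alg

end P025H720
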