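import Vale.Agent.P025.R2.H720.Dense
import Vale.Agent.P025.R2.H359.Div2

/-!
P025, row A-GRAPH (helper720), (A0.2): an edge `w` of the tree of `T` with `|T1|_w ≤ 1` determines a
`V`-vertex `retV w T1` of the tree of `T1`, with an embedding of its residue field in `KK w`,
equivariantly.
-/

set_option linter.unusedSectionVars false

namespace P025H720

open scoped TensorProduct
open Polynomial P025H373 P025H544 P025H505

universe u v w

section Uniq

variable {C : Type u} [NontriviallyNormedField C] [IsUltrametricDist C] [CompleteSpace C]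
  [IsAlgClosed C] {K : Type*} [NormedField K]

/-- two homomorphisms `F1 → K` which are norm decreasing on `A1` and agree on `C(t)` are equal -/
theorem F1_hom_unique (φ ψ : F1 C →+* K)
    (h : ∀ f : RatFunc C, φ (algebraMap (RatFunc C) (F1 C) f) = ψ (algebraMap (RatFunc C) (F1 C) f))
    (hφ : ∀ x : F1 C, (x : F0 C) ∈ A1 C → ‖φ x‖ ≤ ‖(x : F0 C)‖)
    (hψ : ∀ x : F1 C, (x : F0 C) ∈ A1 C → ‖ψ x‖ ≤ ‖(x : F0 C)‖) : φ = ψ := by
  have h1 : ∀ x : F1 C, (x : F0 C) ∈ A1 C → φ x = ψ x := by
    intro x hx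
    have h2 : ∀ ε : ℝ, 0 < ε → ‖φ x - ψ x‖ ≤ ε := by
      intro ε hε
      have hcl : (x : F0 C) ∈ closure (Algebra.adjoin C {tt C} : Set (F0 C)) := hx
      obtain ⟨y, hy, hxy⟩ := Metric.mem_closure_iff.mp hcl (ε / 2) (by positivity)
      rw [SetLike.mem_coe, Algebra.adjoin_singleton_eq_range_aeval] at hy
      obtain ⟨P, rfl⟩ := hy
      let f : RatFunc C := algebraMap C[X] (RatFunc C) P
      have hf : ((algebraMap (RatFunc C) (F1 C) f : F1 C) : F0 C) = aeval (tt C) P := by
        show algebraMap (RatFunc C) (F0 C) (algebraMap C[X] (RatFunc C) P) = _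
        rw [algebraMap_poly_eq]; rfl
      have hfA : ((algebraMap (RatFunc C) (F1 C) f : F1 C) : F0 C) ∈ A1 C := by
        rw [hf]
        apply Subalgebra.le_topologicalClosure
        rw [Algebra.adjoin_singleton_eq_range_aeval]
        exact ⟨P, rfl⟩
      have hsub : ((x - algebraMap (RatFunc C) (F1 C) f : F1 C) : F0 C) =
          (x : F0 C) - aeval (tt C) P := by rw [← hf]; rfl
      have hA : ((x - algebraMap (RatFunc C) (F1 C) f : F1 C) : F0 C) ∈ A1 C := by
        rw [AddSubgroupClass.coe_sub]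
        exact sub_mem hx hfA
      have e1 : φ x - ψ x = φ (x - algebraMap (RatFunc C) (F1 C) f) -
          ψ (x - algebraMap (RatFunc C) (F1 C) f) := by
        rw [map_sub, map_sub, h f]; ring
      rw [e1]
      have hn : ‖((x - algebraMap (RatFunc C) (F1 C) f : F1 C) : F0 C)‖ ≤ ε / 2 := by
        rw [hsub, ← dist_eq_norm]
        exact hxy.le
      calc ‖φ (x - algebraMap (RatFunc C) (F1 C) f) - ψ (x - algebraMap (RatFunc C) (F1 C) f)‖
          ≤ ‖φ (x - algebraMap (RatFunc C) (F1 C) f)‖ +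
            ‖ψ (x - algebraMap (RatFunc C) (F1 C) f)‖ := norm_sub_le _ _
        _ ≤ ε / 2 + ε / 2 := add_le_add ((hφ _ hA).trans hn) ((hψ _ hA).trans hn)
        _ = ε := by ring
    have h3 : ‖φ x - ψ x‖ ≤ 0 := le_of_forall_gt_imp_ge_of_dense (fun ε hε => h2 ε hε)
    exact sub_eq_zero.mp (norm_le_zero_iff.mp h3)
  ext x
  obtain ⟨D, hD, hxD⟩ := mem_F1.mp x.2
  let d : F1 C := algebraMap (RatFunc C) (F1 C) (algebraMap C[X] (RatFunc C) D)
  have hd : (d : F0 C) = aeval (tt C) D := by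
    show algebraMap (RatFunc C) (F0 C) (algebraMap C[X] (RatFunc C) D) = _
    rw [algebraMap_poly_eq]; rfl
  have hd0 : d ≠ 0 := by
    intro h0
    have h4 : algebraMap C[X] (RatFunc C) D = 0 := (map_eq_zero _).mp h0
    exact RatFunc.algebraMap_ne_zero hD h4
  have hdx : ((d * x : F1 C) : F0 C) ∈ A1 C := by
    rw [MulMemClass.coe_mul, hd]; exact hxD
  have h5 := h1 _ hdx
  have hφd : φ d = ψ d := h _
  rw [map_mul, map_mul, hφd] at h5
  have hψd : ψ d ≠ 0 := (map_ne_zero ψ).mpr hd0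
  exact mul_left_cancel₀ hψd h5

end Uniq

section Ret

variable {C : Type u} {kb : Type v} {N : Type w}
  [NontriviallyNormedField C] [IsUltrametricDist C] [CompleteSpace C] [IsAlgClosed C] [CharZero C]
  [Field kb] [IsAlgClosed kb] [Field N] [Algebra kb C] [Algebra kb N] [TrdegOne kb N]
  {T : N} [Fact (Transcendental kb T)] (w : ET C kb N T)
  (T1 : N) [Fact (Transcendental kb T1)]

/-- the map `NC → KK w`, for `NC` considered with the structure given by `T1` -/
noncomputable def ncToKK : NCT C kb N T1 →+* KK w :=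
  (algebraMap (NCT C kb N T) (KK w) : NCT C kb N T →+* KK w)

theorem ncToKK_N (x : N) : ncToKK w T1 (algebraMap N (NCT C kb N T1) x) = nToKK w x := rfl

theorem ncToKK_X : ncToKK w T1 (algebraMap (RatFunc C) (NCT C kb N T1) RatFunc.X) =
    nToKK w T1 := by
  rw [algebraMap_T_X]; rfl

theorem ncToKK_C (a : C) : ncToKK w T1 (algebraMap (RatFunc C) (NCT C kb N T1) (RatFunc.C a)) =
    algebraMap (F0 C) (KK w) (algebraMap C (F0 C) a) := by
  rw [algebraMap_T_C]
  exact (cToKK_eq w a).symm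

/-- properties of the evaluation homomorphism -/
def IsRet (Φ : F1 C ⊗[RatFunc C] NCT C kb N T1 →+* KK w) : Prop :=
  (∀ y : NCT C kb N T1, Φ ((1 : F1 C) ⊗ₜ y) = ncToKK w T1 y) ∧
    ∀ x : F1 C, (x : F0 C) ∈ A1 C → ‖Φ (x ⊗ₜ 1)‖ ≤ ‖(x : F0 C)‖

theorem exists_isRet (h : ‖nToKK w T1‖ ≤ 1) :
    ∃ Φ : F1 C ⊗[RatFunc C] NCT C kb N T1 →+* KK w, IsRet w T1 Φ :=
  P025H359.exists_tensor_hom (κ := KK w) (ncToKK w T1) (ncToKK_C w T1) (by
    rw [ncToKK_X]; exact h)

variable {w T1} in
theorem IsRet.unique {Φ Ψ : F1 C ⊗[RatFunc C] NCT C kb N T1 →+* KK w} (h : IsRet w T1 Φ)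
    (h' : IsRet w T1 Ψ) : Φ = Ψ := by
  have h1 : Φ.comp (Algebra.TensorProduct.includeLeftRingHom (R := RatFunc C) (A := F1 C)
        (B := NCT C kb N T1)) =
      Ψ.comp (Algebra.TensorProduct.includeLeftRingHom (R := RatFunc C) (A := F1 C)
        (B := NCT C kb N T1)) := by
    apply F1_hom_unique
    · intro f
      have e : ∀ f : RatFunc C, (Algebra.TensorProduct.includeLeftRingHom (R := RatFunc C)
          (A := F1 C) (B := NCT C kb N T1)) (algebraMap (RatFunc C) (F1 C) f) =
          (1 : F1 C) ⊗ₜ[RatFunc C] (algebraMap (RatFunc C) (NCT C kb N T1) f) := by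
        intro f
        show (algebraMap (RatFunc C) (F1 C) f) ⊗ₜ[RatFunc C] (1 : NCT C kb N T1) = _
        rw [Algebra.algebraMap_eq_smul_one, Algebra.algebraMap_eq_smul_one,
          TensorProduct.smul_tmul]
      rw [RingHom.comp_apply, RingHom.comp_apply, e, h.1, h'.1]
    · exact h.2
    · exact h'.2
  refine RingHom.ext (fun z => ?_)
  induction z using TensorProduct.induction_on with
  | zero => rw [map_zero, map_zero]
  | add x y hx hy => rw [map_add, map_add, hx, hy]
  | tmul a y =>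
    have e : a ⊗ₜ[RatFunc C] y = (a ⊗ₜ[RatFunc C] (1 : NCT C kb N T1)) *
        ((1 : F1 C) ⊗ₜ[RatFunc C] y) := by
      rw [Algebra.TensorProduct.tmul_mul_tmul, mul_one, one_mul]
    have h2 : Φ (a ⊗ₜ[RatFunc C] (1 : NCT C kb N T1)) = Ψ (a ⊗ₜ[RatFunc C] 1) :=
      congrArg (fun f : F1 C →+* KK w => f a) h1
    rw [e, map_mul, map_mul, h.1, h'.1, h2]

variable (h : ‖nToKK w T1‖ ≤ 1)

/-- the evaluation homomorphism `F1^(T1) ⊗ NC → KK w` -/
noncomputable def retHom : F1 C ⊗[RatFunc C] NCT C kb N T1 →+* KK w :=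
  (exists_isRet w T1 h).choose

theorem retHom_isRet : IsRet w T1 (retHom w T1 h) := (exists_isRet w T1 h).choose_spec

theorem retHom_one_tmul (y : NCT C kb N T1) :
    retHom w T1 h ((1 : F1 C) ⊗ₜ y) = ncToKK w T1 y := (retHom_isRet w T1 h).1 y

theorem norm_retHom_le (x : F1 C) (hx : (x : F0 C) ∈ A1 C) :
    ‖retHom w T1 h (x ⊗ₜ 1)‖ ≤ ‖(x : F0 C)‖ := (retHom_isRet w T1 h).2 x hx

/-- the `V`-vertex of the tree of `T1` determined by `w` -/
noncomputable def retV : VT C kb N T1 :=
  ⟨RingHom.ker (retHom w T1 h), RingHom.ker_isPrime _⟩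

theorem mem_retV (z : F1 C ⊗[RatFunc C] NCT C kb N T1) :
    z ∈ (retV w T1 h).asIdeal ↔ retHom w T1 h z = 0 := Iff.rfl

/-- the embedding of the residue field of `retV` -/
noncomputable def retKK : KK (retV w T1 h) →+* KK w :=
  Ideal.Quotient.lift (retV w T1 h).asIdeal (retHom w T1 h) (fun _ hz => hz)

theorem retKK_toKK (z : F1 C ⊗[RatFunc C] NCT C kb N T1) :
    retKK w T1 h (toKK (retV w T1 h) z) = retHom w T1 h z := rfl

theorem retKK_algebraMap (y : NCT C kb N T1) :
    retKK w T1 h (algebraMap (NCT C kb N T1) _ y) = ncToKK w T1 y := retHom_one_tmul w T1 h y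

theorem retKK_N (x : N) :
    retKK w T1 h (algebraMap (NCT C kb N T1) _ (algebraMap N (NCT C kb N T1) x)) = nToKK w x :=
  retKK_algebraMap w T1 h _

theorem retKK_injective : Function.Injective (retKK w T1 h) := by
  intro x y hxy
  obtain ⟨a, rfl⟩ := toKK_surjective _ x
  obtain ⟨b, rfl⟩ := toKK_surjective _ y
  rw [retKK_toKK, retKK_toKK] at hxy
  apply Ideal.Quotient.eq.mpr
  rw [mem_retV, map_sub, hxy, sub_self]

end Ret

section RetAction

variable {G : Type*} [Group G] [TopologicalSpace G]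
  {C : Type u} {kb : Type v} {N : Type w}
  [NontriviallyNormedField C] [IsUltrametricDist C] [CompleteSpace C] [IsAlgClosed C] [CharZero C]
  [Field kb] [IsAlgClosed kb] [Field N] [Algebra kb C] [Algebra kb N] [TrdegOne kb N]
  [MulSemiringAction G kb] [MulSemiringAction G C] [MulSemiringAction G N]
  [NormAct G C] [Equi G kb C] [Equi G kb N]

/-- shortcut instance -/
noncomputable instance actF1NCT (T1 : N) [Fact (Transcendental kb T1)] [FixedT G T1] :
    MulSemiringAction G (F1 C ⊗[RatFunc C] NCT C kb N T1) := tensorAction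

/-- shortcut instance -/
noncomputable instance smulF1NCT (T1 : N) [Fact (Transcendental kb T1)] [FixedT G T1] :
    SMul G (F1 C ⊗[RatFunc C] NCT C kb N T1) :=
  (actF1NCT (G := G) (C := C) (kb := kb) T1).toSMul

variable
  {T : N} [Fact (Transcendental kb T)] [FixedT G T] (w : ET C kb N T) [FixedT G w]
  (T1 : N) [Fact (Transcendental kb T1)] [FixedT G T1] (h : ‖nToKK w T1‖ ≤ 1)

theorem smul_nToKK (g : G) (x : N) : g • nToKK w x = nToKK w (g • x) := by
  show g • algebraMap (NCT C kb N T) (KK w) (algebraMap N (NCT C kb N T) x) = _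
  rw [Equi.smul_algebraMap (G := G) (F := NCT C kb N T), Equi.smul_algebraMap (G := G) (F := N)]
  rfl

theorem smul_ncToKK (g : G) (y : NCT C kb N T1) : g • ncToKK w T1 y = ncToKK w T1 (g • y) := by
  have h1 : ∀ y : NCT C kb N T, g • algebraMap (NCT C kb N T) (KK w) y =
      algebraMap (NCT C kb N T) (KK w) (g • y) := fun y =>
    Equi.smul_algebraMap (G := G) (F := NCT C kb N T) g y
  exact h1 y

theorem smul_cToKK (g : G) (c : C) : g • cToKK w c = cToKK w (g • c) := by
  show g • algebraMap (F0 C) (KK w) (algebraMap C (F0 C) c) = _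
  rw [Equi.smul_algebraMap (G := G) (F := F0 C), Equi.smul_algebraMap (G := G) (F := C)]
  rfl

/-- the evaluation homomorphism is equivariant -/
theorem retHom_smul (g : G) (z : F1 C ⊗[RatFunc C] NCT C kb N T1) :
    retHom w T1 h (g • z) = g • retHom w T1 h z := by
  let Ψ : F1 C ⊗[RatFunc C] NCT C kb N T1 →+* KK w :=
    ((MulSemiringAction.toRingHom G (KK w) g⁻¹).comp (retHom w T1 h)).comp
      (MulSemiringAction.toRingHom G (F1 C ⊗[RatFunc C] NCT C kb N T1) g)
  have hΨ : ∀ z, Ψ z = g⁻¹ • retHom w T1 h (g • z) := fun z => rfl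
  have h1 : IsRet w T1 Ψ := by
    constructor
    · intro y
      rw [hΨ, smul_tmul_semi, smul_one, retHom_one_tmul, ← smul_ncToKK, inv_smul_smul]
    · intro x hx
      rw [hΨ, norm_smul_kk, smul_tmul_semi, smul_one]
      have h2 := norm_retHom_le w T1 h (g • x) (smul_mem_A1 g hx)
      refine h2.trans (le_of_eq ?_)
      show ‖g • (x : F0 C)‖ = _
      rw [norm_smul_F0]
  have h3 := h1.unique (retHom_isRet w T1 h)
  have h4 : Ψ z = retHom w T1 h z := by rw [h3]
  rw [hΨ] at h4
  rw [← h4, smul_inv_smul]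

/-- the vertex `retV` is fixed if `w` and `T1` are fixed -/
instance retV_fixed : FixedT G (retV w T1 h) where
  fixed g := by
    apply PrimeSpectrum.ext
    ext z
    rw [mem_smul_pt, mem_retV, mem_retV, retHom_smul]
    exact smul_eq_zero_iff_eq g⁻¹

theorem retKK_smul (g : G) (x : KK (retV w T1 h)) :
    retKK w T1 h (g • x) = g • retKK w T1 h x := by
  obtain ⟨z, rfl⟩ := toKK_surjective _ x
  rw [smul_toKK, retKK_toKK, retKK_toKK, retHom_smul]

end RetAction

end P025H720
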