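import Vale.Agent.P025.R2.H720.Tree

/-!
P025, row A-GRAPH (helper720): residue fields of points, with group action.
-/

set_option linter.unusedSectionVars false

namespace P025H720

open scoped TensorProduct
open Polynomial P025H373 P025H544 P025H505

universe u v w

section Def

variable {F A L : Type*} [Field F] [Field A] [Field L] [Algebra F A] [Algebra F L]

/-- the residue field at a point -/
def KK (v : Pt F A L) : Type _ := (A ⊗[F] L) ⧸ v.asIdeal

variable (v : Pt F A L)

noncomputable instance : CommRing (KK v) := inferInstanceAs (CommRing ((A ⊗[F] L) ⧸ v.asIdeal))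

/-- the residue map -/
noncomputable def toKK : A ⊗[F] L →+* KK v := Ideal.Quotient.mk v.asIdeal

theorem toKK_surjective : Function.Surjective (toKK v) := Ideal.Quotient.mk_surjective

theorem toKK_eq_zero_iff {z : A ⊗[F] L} : toKK v z = 0 ↔ z ∈ v.asIdeal :=
  Ideal.Quotient.eq_zero_iff_mem

noncomputable instance algKKA : Algebra A (KK v) :=
  ((toKK v).comp (algebraMap A (A ⊗[F] L))).toAlgebra

noncomputable instance algKKL : Algebra L (KK v) :=
  ((toKK v).comp (Algebra.TensorProduct.includeRight (R := F) (A := A) (B := L)).toRingHom).toAlgebra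

theorem algebraMap_KKA (a : A) : algebraMap A (KK v) a = toKK v (a ⊗ₜ[F] 1) := rfl

theorem algebraMap_KKL (x : L) : algebraMap L (KK v) x = toKK v (1 ⊗ₜ[F] x) := rfl

theorem toKK_tmul (a : A) (x : L) :
    toKK v (a ⊗ₜ[F] x) = algebraMap A (KK v) a * algebraMap L (KK v) x := by
  rw [algebraMap_KKA, algebraMap_KKL, ← map_mul, Algebra.TensorProduct.tmul_mul_tmul, mul_one,
    one_mul]

theorem algebraMap_KK_F (f : F) :
    algebraMap A (KK v) (algebraMap F A f) = algebraMap L (KK v) (algebraMap F L f) := by
  rw [algebraMap_KKA, algebraMap_KKL]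
  congr 1
  rw [Algebra.algebraMap_eq_smul_one, Algebra.algebraMap_eq_smul_one, TensorProduct.smul_tmul]

variable [Algebra.IsAlgebraic F L]

noncomputable instance : Field (KK v) :=
  { (inferInstance : CommRing (KK v)),
    (@Ideal.Quotient.field _ _ v.asIdeal (isMaximal_pt v) : Field ((A ⊗[F] L) ⧸ v.asIdeal)) with }

instance : Algebra.IsAlgebraic A (KK v) := by
  have h1 : Algebra.IsIntegral F L := inferInstance
  have h2 : Algebra.IsIntegral A (A ⊗[F] L) := inferInstance
  constructor
  intro x
  obtain ⟨z, rfl⟩ := toKK_surjective v x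
  obtain ⟨P, hP, hz⟩ := h2.isIntegral z
  apply IsIntegral.isAlgebraic
  refine ⟨P, hP, ?_⟩
  have h3 : (algebraMap A (KK v)) = (toKK v).comp (algebraMap A (A ⊗[F] L)) := rfl
  rw [h3, ← Polynomial.hom_eval₂, hz, map_zero]

end Def

section Action

variable {G F A L : Type*} [Group G] [Field F] [Field A] [Field L] [Algebra F A] [Algebra F L]
  [MulSemiringAction G F] [MulSemiringAction G A] [MulSemiringAction G L]
  [Equi G F A] [Equi G F L] (v : Pt F A L) [hv : FixedT G v]

/-- the action on the residue field of a fixed point -/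
noncomputable def kkHom (g : G) : KK v →+* KK v :=
  Ideal.quotientMap v.asIdeal (MulSemiringAction.toRingHom G (A ⊗[F] L) g) (by
    intro x hx
    rw [Ideal.mem_comap]
    have h1 : g • x ∈ (g • v).asIdeal := (smul_mem_smul_pt g v x).mpr hx
    rw [hv.fixed g] at h1
    exact h1)

theorem kkHom_toKK (g : G) (z : A ⊗[F] L) : kkHom v g (toKK v z) = toKK v (g • z) :=
  Ideal.quotientMap_mk

noncomputable instance kkAction : MulSemiringAction G (KK v) where
  smul g x := kkHom v g x
  one_smul x := by
    obtain ⟨z, rfl⟩ := toKK_surjective v x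
    show kkHom v 1 (toKK v z) = toKK v z
    rw [kkHom_toKK, one_smul]
  mul_smul g h x := by
    obtain ⟨z, rfl⟩ := toKK_surjective v x
    show kkHom v (g * h) (toKK v z) = kkHom v g (kkHom v h (toKK v z))
    rw [kkHom_toKK, kkHom_toKK, kkHom_toKK, mul_smul]
  smul_zero g := map_zero (kkHom v g)
  smul_add g x y := map_add (kkHom v g) x y
  smul_one g := map_one (kkHom v g)
  smul_mul g x y := map_mul (kkHom v g) x y

theorem smul_toKK (g : G) (z : A ⊗[F] L) : g • toKK v z = toKK v (g • z) := kkHom_toKK v g z

instance equi_A_KK : Equi G A (KK v) where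
  smul_algebraMap g a := by
    rw [algebraMap_KKA, smul_toKK, smul_tmul_semi, smul_one, algebraMap_KKA]

instance equi_L_KK : Equi G L (KK v) where
  smul_algebraMap g a := by
    rw [algebraMap_KKL, smul_toKK, smul_tmul_semi, smul_one, algebraMap_KKL]

end Action

section Edge

variable {F A B L : Type*} [Field F] [Field A] [Field B] [Field L] [Algebra F A] [Algebra F B]
  [Algebra A B] [IsScalarTower F A B] [Algebra F L]

/-- residue field map of an edge -/
noncomputable def kkEdge (e : Pt F B L) : KK (edge F A B L e) →+* KK e :=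
  Ideal.quotientMap e.asIdeal (bc F A B L).toRingHom le_rfl

theorem kkEdge_toKK (e : Pt F B L) (z : A ⊗[F] L) :
    kkEdge (A := A) e (toKK (edge F A B L e) z) = toKK e (bc F A B L z) :=
  Ideal.quotientMap_mk

theorem kkEdge_algebraMap_A (e : Pt F B L) (a : A) :
    kkEdge (A := A) e (algebraMap A _ a) = algebraMap B (KK e) (algebraMap A B a) := by
  rw [algebraMap_KKA, kkEdge_toKK, bc_tmul, algebraMap_KKA]

theorem kkEdge_algebraMap_L (e : Pt F B L) (x : L) :
    kkEdge (A := A) e (algebraMap L _ x) = algebraMap L (KK e) x := by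
  rw [algebraMap_KKL, kkEdge_toKK, bc_tmul, map_one, algebraMap_KKL]

variable {G : Type*} [Group G] [MulSemiringAction G F] [MulSemiringAction G A]
  [MulSemiringAction G B] [MulSemiringAction G L] [Equi G F A] [Equi G F B] [Equi G A B]
  [Equi G F L]

instance fixed_edge (e : Pt F B L) [h : FixedT G e] : FixedT G (edge F A B L e) where
  fixed g := by rw [← edge_smul_semi, h.fixed g]

theorem kkEdge_smul (e : Pt F B L) [FixedT G e] (g : G) (x : KK (edge F A B L e)) :
    kkEdge (A := A) e (g • x) = g • kkEdge (A := A) e x := by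
  obtain ⟨z, rfl⟩ := toKK_surjective _ x
  rw [smul_toKK, kkEdge_toKK, kkEdge_toKK, smul_toKK, bc_smul]

end Edge

section NormF0

variable (C : Type u) [NontriviallyNormedField C] [IsUltrametricDist C] [CompleteSpace C]

noncomputable instance nnF0 : NontriviallyNormedField (F0 C) :=
  { (inferInstance : NormedField (F0 C)) with
    non_trivial := by
      obtain ⟨x, hx⟩ := NontriviallyNormedField.non_trivial (α := C)
      exact ⟨algebraMap C (F0 C) x, by rwa [norm_algebraMap_C]⟩ }

end NormF0

section Norm

variable {C : Type u} [NontriviallyNormedField C] [IsUltrametricDist C] [CompleteSpace C]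
variable {L : Type w} [Field L] [Algebra (RatFunc C) L] [Algebra.IsAlgebraic (RatFunc C) L]
variable (w : Pt (RatFunc C) (F0 C) L)

/-- the norm on the residue field of an edge -/
noncomputable instance kkNormedField : NormedField (KK w) :=
  spectralNorm.normedField (F0 C) (KK w)

noncomputable instance kkNormedAlgebra : NormedAlgebra (F0 C) (KK w) :=
  spectralNorm.normedAlgebra (F0 C) (KK w)

instance : IsUltrametricDist (KK w) :=
  IsUltrametricDist.isUltrametricDist_of_isNonarchimedean_norm
    (isNonarchimedean_spectralNorm (K := F0 C) (L := KK w))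

theorem norm_kk_def (x : KK w) : ‖x‖ = spectralNorm (F0 C) (KK w) x := rfl

@[simp] theorem norm_kk_algebraMap (a : F0 C) : ‖algebraMap (F0 C) (KK w) a‖ = ‖a‖ :=
  spectralNorm_extends (K := F0 C) (L := KK w) a

theorem norm_kk_rat (f : RatFunc C) : ‖algebraMap L (KK w) (algebraMap (RatFunc C) L f)‖ =
    gauss C f := by
  rw [← algebraMap_KK_F, norm_kk_algebraMap, P025H373.norm_algebraMap]

/-- uniqueness of the norm -/
theorem norm_kk_unique (f : AbsoluteValue (KK w) ℝ)
    (hf : ∀ a : F0 C, f (algebraMap (F0 C) (KK w) a) = ‖a‖) (x : KK w) : f x = ‖x‖ :=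
  spectralNorm_unique_field_norm_ext (K := F0 C) hf x

variable {G : Type*} [Group G] [TopologicalSpace G] [MulSemiringAction G C] [NormAct G C]
  [MulSemiringAction G L] [Equi G (RatFunc C) L] [FixedT G w]

theorem norm_smul_kk (g : G) (x : KK w) : ‖g • x‖ = ‖x‖ := by
  have h := norm_kk_unique w
    { toFun := fun x => ‖g • x‖
      map_mul' := fun x y => by rw [smul_mul', norm_mul]
      nonneg' := fun x => norm_nonneg _
      eq_zero' := fun x => by rw [norm_eq_zero]; exact smul_eq_zero_iff_eq g
      add_le' := fun x y => by rw [smul_add]; exact norm_add_le _ _ }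
    (by
      intro a
      show ‖g • algebraMap (F0 C) (KK w) a‖ = ‖a‖
      rw [Equi.smul_algebraMap (G := G) (F := F0 C), norm_kk_algebraMap, norm_smul_F0]) x
  exact h

end Norm

end P025H720
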