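import Vale.Agent.P025.R2.H720.KK

/-!
P025, row A-GRAPH (helper720): density of `N` in the residue field of an edge.
-/

set_option linter.unusedSectionVars false

namespace P025H720

open scoped TensorProduct
open Polynomial P025H373 P025H544 P025H505

universe u v w

section Dense

variable {C : Type u} {kb : Type v} {N : Type w}
  [NontriviallyNormedField C] [IsUltrametricDist C] [CompleteSpace C] [IsAlgClosed C] [CharZero C]
  [Field kb] [IsAlgClosed kb] [Field N] [Algebra kb C] [Algebra kb N] [TrdegOne kb N]
  {T : N} [Fact (Transcendental kb T)] (w : ET C kb N T)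

/-- the map `N → KK w` -/
noncomputable def nToKK : N →+* KK w :=
  (algebraMap (NCT C kb N T) (KK w)).comp (algebraMap N (NCT C kb N T))

/-- the map `C → KK w` -/
noncomputable def cToKK : C →+* KK w := (algebraMap (F0 C) (KK w)).comp (algebraMap C (F0 C))

theorem cToKK_eq (c : C) :
    cToKK w c = algebraMap (NCT C kb N T) (KK w) (algebraMap C (NCT C kb N T) c) := by
  show algebraMap (F0 C) (KK w) (algebraMap C (F0 C) c) = _
  rw [algebraMap_C_eq, algebraMap_KK_F, algebraMap_T_C]

theorem norm_cToKK (c : C) : ‖cToKK w c‖ = ‖c‖ := by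
  show ‖algebraMap (F0 C) (KK w) (algebraMap C (F0 C) c)‖ = _
  rw [norm_kk_algebraMap, norm_algebraMap_C]

theorem continuous_cToKK : Continuous (cToKK w) :=
  AddMonoidHomClass.continuous_of_bound (cToKK w) 1 (fun x => by rw [norm_cToKK, one_mul])

theorem continuous_F0_KK : Continuous (algebraMap (F0 C) (KK w)) :=
  AddMonoidHomClass.continuous_of_bound (algebraMap (F0 C) (KK w)) 1
    (fun x => by rw [norm_kk_algebraMap, one_mul])

/-- `N` is dense in `KK w` if `kb` is dense in `C` -/
theorem denseRange_nToKK (hd : DenseRange (algebraMap kb C)) : DenseRange (nToKK w) := by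
  let S : Subfield (KK w) := (nToKK w).fieldRange.topologicalClosure
  have hS : IsClosed (S : Set (KK w)) := Subfield.isClosed_topologicalClosure _
  have hN : ∀ x : N, nToKK w x ∈ S := fun x => Subfield.le_topologicalClosure _ ⟨x, rfl⟩
  have hC : ∀ c : C, cToKK w c ∈ S := by
    intro c
    refine hd.induction_on (p := fun c => cToKK w c ∈ S) c
      (hS.preimage (continuous_cToKK w)) ?_
    intro a
    have h1 : cToKK w (algebraMap kb C a) = nToKK w (algebraMap kb N a) := by
      rw [cToKK_eq]
      show _ = algebraMap (NCT C kb N T) (KK w) (algebraMap N (NCT C kb N T) (algebraMap kb N a))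
      rw [← IsScalarTower.algebraMap_apply kb C (NCT C kb N T),
        ← IsScalarTower.algebraMap_apply kb N (NCT C kb N T)]
    rw [h1]
    exact hN _
  have hNC : ∀ y : NCT C kb N T, algebraMap (NCT C kb N T) (KK w) y ∈ S := by
    intro y
    obtain ⟨a, b, hb, hab⟩ := IsFractionRing.div_surjective (A := C ⊗[kb] N) (K := NC C kb N) y
    have hmem : ∀ a : C ⊗[kb] N, algebraMap (NCT C kb N T) (KK w)
        (algebraMap (C ⊗[kb] N) (NC C kb N) a : NCT C kb N T) ∈ S := by
      intro a
      induction a using TensorProduct.induction_on with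
      | zero => rw [map_zero]; exact (map_zero (algebraMap (NCT C kb N T) (KK w))).symm ▸ S.zero_mem
      | add x y hx hy =>
        rw [map_add]
        exact (map_add (algebraMap (NCT C kb N T) (KK w)) _ _).symm ▸ S.add_mem hx hy
      | tmul c x =>
        rw [tmul_eq]
        have h2 := S.mul_mem (hC c) (hN x)
        rw [cToKK_eq] at h2
        exact (map_mul (algebraMap (NCT C kb N T) (KK w)) _ _).symm ▸ h2
    rw [← hab]
    exact (map_div₀ (algebraMap (NCT C kb N T) (KK w)) _ _).symm ▸ S.div_mem (hmem a) (hmem b)
  have hF0 : ∀ a : F0 C, algebraMap (F0 C) (KK w) a ∈ S := by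
    intro a
    refine F0_induction (p := fun a => algebraMap (F0 C) (KK w) a ∈ S) a
      (hS.preimage (continuous_F0_KK w)) ?_
    intro f
    rw [algebraMap_KK_F]
    exact hNC _
  have hall : ∀ x : KK w, x ∈ S := by
    intro x
    obtain ⟨z, rfl⟩ := toKK_surjective w x
    induction z using TensorProduct.induction_on with
    | zero => rw [map_zero]; exact S.zero_mem
    | add x y hx hy => rw [map_add]; exact S.add_mem hx hy
    | tmul a y =>
      rw [toKK_tmul]
      exact S.mul_mem (hF0 a) (hNC y)
  intro x
  have h3 : x ∈ closure ((nToKK w).fieldRange : Set (KK w)) := hall x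
  rwa [RingHom.coe_fieldRange] at h3

theorem exists_norm_sub_lt (hd : DenseRange (algebraMap kb C)) (x : KK w) {ε : ℝ} (hε : 0 < ε) :
    ∃ y : N, ‖x - nToKK w y‖ < ε := by
  obtain ⟨y, hy⟩ := (denseRange_nToKK w hd).exists_dist_lt x hε
  exact ⟨y, by rwa [dist_eq_norm] at hy⟩

end Dense

section Complete

variable {C : Type u} [NontriviallyNormedField C] [IsUltrametricDist C] [CompleteSpace C]
variable {L : Type w} [Field L] [Algebra (RatFunc C) L] [Algebra.IsAlgebraic (RatFunc C) L]
variable (w : Pt (RatFunc C) (F0 C) L)

/-- finite-dimensional subfields are complete -/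
theorem complete_of_finite (E : IntermediateField (F0 C) (KK w)) [FiniteDimensional (F0 C) E] :
    CompleteSpace E := by
  have : CompleteSpace E.toSubmodule := FiniteDimensional.complete (F0 C) E.toSubmodule
  exact this

/-- the field generated by an element -/
noncomputable def fieldOf (x : KK w) : IntermediateField (F0 C) (KK w) :=
  IntermediateField.adjoin (F0 C) {x}

instance (x : KK w) : FiniteDimensional (F0 C) (fieldOf w x) :=
  IntermediateField.adjoin.finiteDimensional (Algebra.IsAlgebraic.isAlgebraic x).isIntegral

instance (x : KK w) : CompleteSpace (fieldOf w x) := complete_of_finite w _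

theorem mem_fieldOf (x : KK w) : x ∈ fieldOf w x := IntermediateField.mem_adjoin_simple_self _ x

noncomputable instance (x : KK w) : NormedField (fieldOf w x) := inferInstance

noncomputable instance (x : KK w) : NormedAlgebra (F0 C) (fieldOf w x) := inferInstance

end Complete

end P025H720
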