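import Mathlib

/-!
P025, row A-GRAPH (helper720): tensor products of domains over an algebraically closed field are
domains.
-/

namespace P025H720

open scoped TensorProduct

/-- Nullstellensatz: a nonzero element of a finitely generated reduced algebra (here: a domain) over
an algebraically closed field is nonzero at some rational point. -/
theorem exists_point (k A : Type*) [Field k] [IsAlgClosed k] [CommRing A] [IsDomain A]
    [Algebra k A] [Algebra.FiniteType k A] (a : A) (ha : a ≠ 0) : ∃ φ : A →ₐ[k] k, φ a ≠ 0 := by
  let B := Localization.Away a
  have hB : Algebra.FiniteType k B :=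
    .trans (S := A) inferInstance (IsLocalization.finiteType_of_monoid_fg (Submonoid.powers a) _)
  have hnt : Nontrivial B := by
    have h1 : Function.Injective (algebraMap A B) :=
      IsLocalization.injective B (M := Submonoid.powers a)
        (powers_le_nonZeroDivisors_of_noZeroDivisors ha)
    exact h1.nontrivial
  obtain ⟨m, hm⟩ := Ideal.exists_maximal B
  let K := B ⧸ m
  let _ : Field K := Ideal.Quotient.field m
  have hK : Algebra.FiniteType k K :=
    Algebra.FiniteType.of_surjective (Ideal.Quotient.mkₐ k m) (Ideal.Quotient.mkₐ_surjective k m)
  have hfin : Module.Finite k K := finite_of_finite_type_of_isJacobsonRing k K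
  have hbij : Function.Bijective (algebraMap k K) :=
    IsAlgClosed.algebraMap_bijective_of_isIntegral
  let e : k ≃ₐ[k] K := AlgEquiv.ofBijective (Algebra.ofId k K) hbij
  let ψ : A →ₐ[k] K := (Ideal.Quotient.mkₐ k m).comp (IsScalarTower.toAlgHom k A B)
  refine ⟨(e.symm : K →ₐ[k] k).comp ψ, ?_⟩
  have hu : IsUnit (ψ a) := by
    have h1 : IsUnit (algebraMap A B a) := IsLocalization.Away.algebraMap_isUnit a
    exact h1.map (Ideal.Quotient.mkₐ k m)
  exact (hu.map ((e.symm : K →ₐ[k] k))).ne_zero

theorem isDomain_tensor (k A B : Type*) [Field k] [IsAlgClosed k] [CommRing A] [IsDomain A]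
    [Algebra k A] [CommRing B] [IsDomain B] [Algebra k B] : IsDomain (A ⊗[k] B) := by
  classical
  have hnt : Nontrivial (A ⊗[k] B) := inferInstance
  have key : ∀ x y : A ⊗[k] B, x * y = 0 → x = 0 ∨ y = 0 := by
    intro x y hxy
    by_contra hcon
    push Not at hcon
    obtain ⟨hx, hy⟩ := hcon
    let b := Module.Basis.ofVectorSpace k B
    let bA := b.baseChange A
    have hx' : bA.repr x ≠ 0 := fun h => hx (by simpa using h)
    have hy' : bA.repr y ≠ 0 := fun h => hy (by simpa using h)
    obtain ⟨i, hi⟩ := DFunLike.ne_iff.mp hx'
    obtain ⟨j, hj⟩ := DFunLike.ne_iff.mp hy'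
    -- finitely generated subalgebra
    let S : Finset A := (bA.repr x).support.image (bA.repr x) ∪
      (bA.repr y).support.image (bA.repr y)
    let A' : Subalgebra k A := Algebra.adjoin k (S : Set A)
    have hft : Algebra.FiniteType k A' :=
      (Subalgebra.fg_iff_finiteType _).mp ⟨S, rfl⟩
    have hmem : ∀ z : A ⊗[k] B, (∀ l ∈ (bA.repr z).support, bA.repr z l ∈ A') →
        ∃ z' : A' ⊗[k] B, Algebra.TensorProduct.map A'.val (AlgHom.id k B) z' = z ∧
          ∀ l, ((b.baseChange A').repr z' l : A) = bA.repr z l := by
      intro z hz
      let b' := b.baseChange A'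
      let f : _ →₀ A' := Finsupp.onFinset (bA.repr z).support
        (fun l => if h : l ∈ (bA.repr z).support then ⟨bA.repr z l, hz l h⟩ else 0)
        (by
          intro l hl
          by_contra h
          rw [dif_neg h] at hl
          exact hl rfl)
      have hf : ∀ l, (f l : A) = bA.repr z l := by
        intro l
        show ((if h : l ∈ (bA.repr z).support then (⟨bA.repr z l, hz l h⟩ : A') else 0 : A') : A)
          = _
        split_ifs with h
        · rfl
        · rw [Finsupp.notMem_support_iff] at h
          rw [h]; rfl
      refine ⟨b'.repr.symm f, ?_, ?_⟩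
      · apply bA.repr.injective
        ext l
        have h1 : ∀ w : A' ⊗[k] B,
            bA.repr (Algebra.TensorProduct.map A'.val (AlgHom.id k B) w) l =
              ((b'.repr w l : A') : A) := by
          intro w
          induction w using TensorProduct.induction_on with
          | zero => simp
          | add u v hu hv => rw [map_add, map_add, map_add, Finsupp.add_apply, hu, hv,
              Finsupp.add_apply]; rfl
          | tmul a c =>
            rw [Algebra.TensorProduct.map_tmul, Module.Basis.baseChange_repr_tmul,
              Module.Basis.baseChange_repr_tmul]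
            rfl
        rw [h1, LinearEquiv.apply_symm_apply, hf]
      · intro l
        rw [LinearEquiv.apply_symm_apply, hf]
    have hSx : ∀ l ∈ (bA.repr x).support, bA.repr x l ∈ A' := by
      intro l hl
      apply Algebra.subset_adjoin
      rw [Finset.mem_coe, Finset.mem_union]
      exact Or.inl (Finset.mem_image_of_mem _ hl)
    have hSy : ∀ l ∈ (bA.repr y).support, bA.repr y l ∈ A' := by
      intro l hl
      apply Algebra.subset_adjoin
      rw [Finset.mem_coe, Finset.mem_union]
      exact Or.inr (Finset.mem_image_of_mem _ hl)
    obtain ⟨x', hx'1, hx'2⟩ := hmem x hSx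
    obtain ⟨y', hy'1, hy'2⟩ := hmem y hSy
    have hinj : Function.Injective (Algebra.TensorProduct.map A'.val (AlgHom.id k B)) := by
      have h := Module.Flat.rTensor_preserves_injective_linearMap (M := B) A'.val.toLinearMap
        Subtype.val_injective
      intro u v huv
      apply h
      have e : ∀ z : A' ⊗[k] B, LinearMap.rTensor B A'.val.toLinearMap z =
          Algebra.TensorProduct.map A'.val (AlgHom.id k B) z := by
        intro z
        induction z using TensorProduct.induction_on with
        | zero => rw [map_zero, map_zero]
        | add x y hx hy => rw [map_add, map_add, hx, hy]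
        | tmul a x => simp
      rw [e, e]
      exact huv
    have hxy' : x' * y' = 0 := by
      apply hinj
      rw [map_mul, hx'1, hy'1, hxy, map_zero]
    set a := (b.baseChange A').repr x' i with ha
    set c := (b.baseChange A').repr y' j with hc
    have hac : a * c ≠ 0 := by
      apply mul_ne_zero
      · intro h
        apply hi
        rw [← hx'2 i, ← ha, h]; rfl
      · intro h
        apply hj
        rw [← hy'2 j, ← hc, h]; rfl
    obtain ⟨φ, hφ⟩ := exists_point k A' (a * c) hac
    let Φ : A' ⊗[k] B →ₐ[k] B :=
      Algebra.TensorProduct.lift ((Algebra.ofId k B).comp φ) (AlgHom.id k B)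
        (fun _ _ => Commute.all _ _)
    have hΦ : ∀ (z : A' ⊗[k] B) (l), b.repr (Φ z) l = φ ((b.baseChange A').repr z l) := by
      intro z l
      induction z using TensorProduct.induction_on with
      | zero => simp
      | add u v hu hv => rw [map_add, map_add, map_add, Finsupp.add_apply, hu, hv,
          Finsupp.add_apply, map_add]
      | tmul a c =>
        rw [Algebra.TensorProduct.lift_tmul, Module.Basis.baseChange_repr_tmul]
        show b.repr (algebraMap k B (φ a) * c) l = _
        rw [← Algebra.smul_def, map_smul, Finsupp.smul_apply, map_smul, smul_eq_mul, smul_eq_mul,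
          mul_comm]
    have h0 : Φ x' * Φ y' = 0 := by rw [← map_mul, hxy', map_zero]
    rcases mul_eq_zero.mp h0 with h | h
    · apply hφ
      rw [map_mul, ha, ← hΦ x' i, h]
      simp
    · apply hφ
      rw [map_mul, hc, ← hΦ y' j, h]
      simp
  exact { hnt with
    mul_left_cancel_of_ne_zero := by
      intro a ha b c hbc
      have h1 : a * (b - c) = 0 := by
        have : a * b = a * c := hbc
        rw [mul_sub, this, sub_self]
      exact sub_eq_zero.mp ((key a (b - c) h1).resolve_left ha)
    mul_right_cancel_of_ne_zero := by
      intro a ha b c hbc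
      have h1 : (b - c) * a = 0 := by
        have : b * a = c * a := hbc
        rw [sub_mul, this, sub_self]
      exact sub_eq_zero.mp ((key (b - c) a h1).resolve_right ha) }

end P025H720
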