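import Vale.Agent.P025.R2.H720.Prof

/-!
P025, row A-GRAPH (helper720), file 2: locally constant functions `Spec R → Z/n` are the same as
elements of `μ_n(R)`.
-/

set_option linter.unusedSectionVars false

namespace P025H720

open PrimeSpectrum

section ModN
variable {n : ℕ} [NeZero n] {F : Type*} [Field F] {ζ : F}

/-- `ζ ^ i` for `i : ZMod n` -/
def zpw (ζ : F) (i : ZMod n) : F := ζ ^ i.val

theorem zpw_inj (hζ : IsPrimitiveRoot ζ n) {i j : ZMod n} (h : zpw ζ i = zpw ζ j) : i = j := by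
  have h1 : i.val = j.val := hζ.pow_inj (ZMod.val_lt i) (ZMod.val_lt j) h
  exact ZMod.val_injective n h1

theorem zpw_natCast (hζ : IsPrimitiveRoot ζ n) (a : ℕ) : zpw ζ ((a : ℕ) : ZMod n) = ζ ^ a := by
  unfold zpw
  rw [ZMod.val_natCast]
  conv_rhs => rw [← Nat.mod_add_div a n, pow_add, pow_mul, hζ.pow_eq_one, one_pow, mul_one]

theorem zpw_add (hζ : IsPrimitiveRoot ζ n) (i j : ZMod n) :
    zpw ζ (i + j) = zpw ζ i * zpw ζ j := by
  have h : i + j = ((i.val + j.val : ℕ) : ZMod n) := by simp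
  rw [h, zpw_natCast hζ, pow_add]; rfl

theorem zpw_zero : zpw ζ (0 : ZMod n) = 1 := by simp [zpw]

theorem zpw_pow (hζ : IsPrimitiveRoot ζ n) (i : ZMod n) : zpw ζ i ^ n = 1 := by
  unfold zpw
  rw [← pow_mul, mul_comm, pow_mul, hζ.pow_eq_one, one_pow]

theorem zpw_ne_zero (hζ : IsPrimitiveRoot ζ n) (i : ZMod n) : zpw ζ i ≠ 0 :=
  pow_ne_zero _ (hζ.ne_zero (NeZero.ne n))

theorem exists_zpw (hζ : IsPrimitiveRoot ζ n) {x : F} (hx : x ^ n = 1) :
    ∃ i : ZMod n, x = zpw ζ i := by
  obtain ⟨i, _, hi'⟩ := hζ.eq_pow_of_pow_eq_one hx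
  exact ⟨(i : ZMod n), by rw [zpw_natCast hζ, hi']⟩

end ModN

section Ring
variable {n : ℕ} [NeZero n] {F : Type*} [Field F] {ζ : F} {R : Type*} [CommRing R] [Algebra F R]

/-- `x ≡ ζ ^ i` modulo `P` -/
def Cong (ζ : F) (x : R) (P : PrimeSpectrum R) (i : ZMod n) : Prop :=
  x - algebraMap F R (zpw ζ i) ∈ P.asIdeal

theorem Cong.unique (hζ : IsPrimitiveRoot ζ n) {x : R} {P : PrimeSpectrum R} {i j : ZMod n}
    (hi : Cong ζ x P i) (hj : Cong ζ x P j) : i = j := by
  by_contra hij
  have h1 : algebraMap F R (zpw ζ j - zpw ζ i) ∈ P.asIdeal := by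
    have := P.asIdeal.sub_mem hi hj
    have h2 : x - algebraMap F R (zpw ζ i) - (x - algebraMap F R (zpw ζ j)) =
        algebraMap F R (zpw ζ j - zpw ζ i) := by rw [map_sub]; ring
    rwa [h2] at this
  have h2 : zpw ζ j - zpw ζ i ≠ 0 := by
    intro h0
    exact hij (zpw_inj hζ (sub_eq_zero.mp h0).symm)
  apply P.2.ne_top
  exact Ideal.eq_top_of_isUnit_mem _ h1 ((isUnit_iff_ne_zero.mpr h2).map (algebraMap F R))

/-- an element of `μ_n(R)` gives a locally constant function -/
theorem exists_lc (hζ : IsPrimitiveRoot ζ n) {x : R} (hx : x ^ n = 1) :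
    ∃ α : LocallyConstant (PrimeSpectrum R) (ZMod n), ∀ P, Cong ζ x P (α P) := by
  classical
  have h1 : ∀ P : PrimeSpectrum R, ∃ i : ZMod n, Cong ζ x P i := by
    intro P
    have hprod : ∏ i : ZMod n, (x - algebraMap F R (zpw ζ i)) = 0 := by
      have hX : (Polynomial.X ^ n - 1 : Polynomial F) =
          ∏ i : ZMod n, (Polynomial.X - Polynomial.C (zpw ζ i)) := by
        have h2 := Polynomial.X_pow_sub_one_eq_prod (R := F) (NeZero.pos n) hζ
        rw [h2]
        symm
        apply Finset.prod_bij (fun (i : ZMod n) _ => zpw ζ i)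
        · intro i _
          rw [Polynomial.mem_nthRootsFinset (NeZero.pos n)]
          exact zpw_pow hζ i
        · intro i _ j _ hij
          exact zpw_inj hζ hij
        · intro y hy
          rw [Polynomial.mem_nthRootsFinset (NeZero.pos n)] at hy
          obtain ⟨i, hi⟩ := exists_zpw hζ hy
          exact ⟨i, Finset.mem_univ _, hi.symm⟩
        · intro i _; rfl
      have h3 : Polynomial.aeval x (Polynomial.X ^ n - 1 : Polynomial F) = 0 := by
        simp [hx]
      rw [hX, map_prod] at h3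
      simpa using h3
    have : ∏ i : ZMod n, (x - algebraMap F R (zpw ζ i)) ∈ P.asIdeal := by
      rw [hprod]; exact P.asIdeal.zero_mem
    obtain ⟨i, -, hi⟩ := (Ideal.IsPrime.prod_mem_iff (hp := P.2)).mp this
    exact ⟨i, hi⟩
  choose α hα using h1
  have hfib : ∀ i : ZMod n, {P : PrimeSpectrum R | α P = i} =
      zeroLocus {x - algebraMap F R (zpw ζ i)} := by
    intro i
    ext P
    simp only [Set.mem_ofPred_eq, mem_zeroLocus, Set.singleton_subset_iff, SetLike.mem_coe]
    constructor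
    · rintro rfl; exact hα P
    · intro h; exact Cong.unique hζ (hα P) h
  have hclosed : ∀ s : Set (ZMod n), IsClosed {P : PrimeSpectrum R | α P ∈ s} := by
    intro s
    have : {P : PrimeSpectrum R | α P ∈ s} = ⋃ i ∈ s, {P : PrimeSpectrum R | α P = i} := by
      ext P; simp
    rw [this]
    apply Set.Finite.isClosed_biUnion (Set.toFinite s)
    intro i _
    rw [hfib i]
    exact isClosed_zeroLocus _
  refine ⟨⟨α, ?_⟩, hα⟩
  rw [IsLocallyConstant.iff_isOpen_fiber]
  intro i
  have h4 : α ⁻¹' {i} = {P : PrimeSpectrum R | α P ∈ ({i}ᶜ : Set (ZMod n))}ᶜ := by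
    ext P; simp
  rw [h4]
  exact (hclosed _).isOpen_compl

/-- a locally constant function gives an element of `μ_n(R)` -/
theorem exists_mu [IsReduced R] (hζ : IsPrimitiveRoot ζ n)
    (α : LocallyConstant (PrimeSpectrum R) (ZMod n)) :
    ∃ x : R, x ^ n = 1 ∧ ∀ P, Cong ζ x P (α P) := by
  classical
  have h1 : ∀ i : ZMod n, ∃ e : R, IsIdempotentElem e ∧
      ∀ P : PrimeSpectrum R, α P = i ↔ 1 - e ∈ P.asIdeal := by
    intro i
    exact exists_idem_of_clopen (s := {P | α P = i}) (α.2.isClopen_fiber i)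
  choose e he hP using h1
  have h2 : ∀ (P : PrimeSpectrum R) (i : ZMod n), α P ≠ i → e i ∈ P.asIdeal := by
    intro P i hne
    have h3 : 1 - e i ∉ P.asIdeal := fun h => hne ((hP i P).mpr h)
    have h0 : e i * (1 - e i) ∈ P.asIdeal := by
      have : e i * (1 - e i) = 0 := by
        have := (he i).eq
        linear_combination -this
      rw [this]; exact P.asIdeal.zero_mem
    exact (P.2.mem_or_mem h0).resolve_right h3
  set x : R := ∑ i : ZMod n, e i * algebraMap F R (zpw ζ i) with hx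
  have hc : ∀ P, Cong ζ x P (α P) := by
    intro P
    show x - algebraMap F R (zpw ζ (α P)) ∈ P.asIdeal
    rw [hx, ← Finset.add_sum_erase _ _ (Finset.mem_univ (α P))]
    have h3 : e (α P) * algebraMap F R (zpw ζ (α P)) +
        ∑ i ∈ Finset.univ.erase (α P), e i * algebraMap F R (zpw ζ i) -
        algebraMap F R (zpw ζ (α P)) =
        ∑ i ∈ Finset.univ.erase (α P), e i * algebraMap F R (zpw ζ i) -
          (1 - e (α P)) * algebraMap F R (zpw ζ (α P)) := by ring
    rw [h3]
    apply P.asIdeal.sub_mem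
    · apply Ideal.sum_mem
      intro i hi
      exact P.asIdeal.mul_mem_right _ (h2 P i (Finset.ne_of_mem_erase hi).symm)
    · exact P.asIdeal.mul_mem_right _ ((hP (α P) P).mp rfl)
  refine ⟨x, ?_, hc⟩
  apply sub_eq_zero.mp
  apply eq_zero_of_forall_mem
  intro P
  have h4 : (x - algebraMap F R (zpw ζ (α P))) ∣ x ^ n - (algebraMap F R (zpw ζ (α P))) ^ n :=
    sub_dvd_pow_sub_pow _ _ n
  rw [← map_pow, zpw_pow hζ, map_one] at h4
  exact P.asIdeal.mem_of_dvd h4 (hc P)

/-- equality of elements which are congruent modulo all primes -/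
theorem eq_of_cong [IsReduced R] {x y : R} {α : PrimeSpectrum R → ZMod n}
    (hx : ∀ P, Cong ζ x P (α P)) (hy : ∀ P, Cong ζ y P (α P)) : x = y := by
  apply sub_eq_zero.mp
  apply eq_zero_of_forall_mem
  intro P
  have := P.asIdeal.sub_mem (hx P) (hy P)
  have h2 : x - algebraMap F R (zpw ζ (α P)) - (y - algebraMap F R (zpw ζ (α P))) = x - y := by
    ring
  rwa [h2] at this

theorem Cong.comap {S : Type*} [CommRing S] [Algebra F S] (φ : R →ₐ[F] S) {x : R}
    {P : PrimeSpectrum S} {i : ZMod n} (h : Cong ζ x (PrimeSpectrum.comap φ.toRingHom P) i) :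
    Cong ζ (φ x) P i := by
  have h1 : φ (x - algebraMap F R (zpw ζ i)) ∈ P.asIdeal := h
  unfold Cong
  rwa [map_sub, AlgHom.commutes] at h1

theorem Cong.mul (hζ : IsPrimitiveRoot ζ n) {x y : R} {P : PrimeSpectrum R} {i j : ZMod n}
    (hx : Cong ζ x P i) (hy : Cong ζ y P j) : Cong ζ (x * y) P (i + j) := by
  unfold Cong at *
  rw [zpw_add hζ, map_mul]
  have : x * y - algebraMap F R (zpw ζ i) * algebraMap F R (zpw ζ j) =
      (x - algebraMap F R (zpw ζ i)) * y +
        algebraMap F R (zpw ζ i) * (y - algebraMap F R (zpw ζ j)) := by ring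
  rw [this]
  exact P.asIdeal.add_mem (P.asIdeal.mul_mem_right _ hx) (P.asIdeal.mul_mem_left _ hy)

end Ring

end P025H720
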