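import Mathlib

/-!
P025, row A-GRAPH (helper720), file 1: profinite spectra of absolutely flat rings.
-/

namespace P025H720

open PrimeSpectrum

/-- absolutely flat (von Neumann regular) -/
def AbsFlat (R : Type*) [CommRing R] : Prop := ∀ x : R, ∃ y : R, x ^ 2 * y = x

theorem absFlat_of_integral (k R : Type*) [Field k] [CommRing R] [Algebra k R]
    [Algebra.IsIntegral k R] [IsReduced R] : AbsFlat R := by
  intro x
  obtain ⟨f, hf, hx⟩ := Algebra.IsIntegral.isIntegral (R := k) x
  have hf0 : f ≠ 0 := hf.ne_zero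
  obtain ⟨g, hfg, hg⟩ := Polynomial.exists_eq_pow_rootMultiplicity_mul_and_not_dvd f hf0 0
  set m := Polynomial.rootMultiplicity 0 f with hm
  have hg0 : g.coeff 0 ≠ 0 := by
    intro h
    apply hg
    rw [Polynomial.C_0, sub_zero]
    exact Polynomial.X_dvd_iff.mpr h
  have h1 : x ^ m * Polynomial.aeval x g = 0 := by
    have : Polynomial.aeval x f = 0 := hx
    rw [hfg] at this
    simpa using this
  have h2 : x * Polynomial.aeval x g = 0 := by
    rcases Nat.eq_zero_or_pos m with h0 | h0
    · rw [h0, pow_zero, one_mul] at h1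
      rw [h1, mul_zero]
    · have : (x * Polynomial.aeval x g) ^ m = 0 := by
        obtain ⟨l, hl⟩ : ∃ l, m = l + 1 := ⟨m - 1, by omega⟩
        rw [hl] at h1 ⊢
        calc (x * Polynomial.aeval x g) ^ (l + 1)
            = (x ^ (l + 1) * Polynomial.aeval x g) * (Polynomial.aeval x g) ^ l := by
              rw [mul_pow, pow_succ (Polynomial.aeval x g) l]; ring
          _ = 0 := by rw [h1, zero_mul]
      exact pow_eq_zero_iff (by omega) |>.mp this
  -- g = g(0) + X * h
  obtain ⟨h, hh⟩ : ∃ h : Polynomial k, g = Polynomial.C (g.coeff 0) + Polynomial.X * h := by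
    refine ⟨g.divX, ?_⟩
    conv_lhs => rw [← Polynomial.divX_mul_X_add g]
    ring
  have h3 : Polynomial.aeval x g = algebraMap k R (g.coeff 0) + x * Polynomial.aeval x h := by
    conv_lhs => rw [hh]
    simp
  refine ⟨- algebraMap k R (g.coeff 0)⁻¹ * Polynomial.aeval x h, ?_⟩
  have h4 : x * algebraMap k R (g.coeff 0) = - (x ^ 2 * Polynomial.aeval x h) := by
    rw [h3] at h2
    linear_combination h2
  have h5 : algebraMap k R (g.coeff 0) * algebraMap k R (g.coeff 0)⁻¹ = 1 := by
    rw [← map_mul, mul_inv_cancel₀ hg0, map_one]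
  linear_combination (-algebraMap k R (g.coeff 0)⁻¹) * h4 + x * h5

variable {R : Type*} [CommRing R]

theorem AbsFlat.exists_idem (h : AbsFlat R) (x : R) :
    ∃ e : R, IsIdempotentElem e ∧ ∀ P : Ideal R, x ∈ P ↔ e ∈ P := by
  obtain ⟨y, hy⟩ := h x
  refine ⟨x * y, ?_, ?_⟩
  · show x * y * (x * y) = x * y
    linear_combination y * hy
  · intro P
    refine ⟨fun hx => P.mul_mem_right _ hx, fun hx => ?_⟩
    have : x = x * (x * y) := by linear_combination -hy
    rw [this]
    exact P.mul_mem_left _ hx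

theorem AbsFlat.isMaximal (h : AbsFlat R) (P : Ideal R) [hP : P.IsPrime] : P.IsMaximal := by
  rw [Ideal.isMaximal_iff]
  refine ⟨fun h1 => hP.ne_top ((Ideal.eq_top_iff_one P).mpr h1), ?_⟩
  intro J x hPJ hx hxJ
  obtain ⟨y, hy⟩ := h x
  have h0 : x * (1 - x * y) = 0 := by linear_combination -hy
  have h1 : 1 - x * y ∈ P := by
    have : x * (1 - x * y) ∈ P := by rw [h0]; exact P.zero_mem
    exact (hP.mem_or_mem this).resolve_left hx
  have h2 : (1 : R) = (1 - x * y) + x * y := by ring
  rw [h2]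
  exact J.add_mem (hPJ h1) (J.mul_mem_right _ hxJ)

theorem AbsFlat.t2 (h : AbsFlat R) : T2Space (PrimeSpectrum R) := by
  constructor
  intro P Q hPQ
  have key : ∀ P Q : PrimeSpectrum R, P ≠ Q → ∃ x, x ∈ P.asIdeal ∧ x ∉ Q.asIdeal := by
    intro P Q hPQ
    by_contra hcon
    push Not at hcon
    apply hPQ
    have hm := h.isMaximal P.asIdeal
    have : P.asIdeal = Q.asIdeal := hm.eq_of_le Q.2.ne_top (fun x hx => hcon x hx)
    exact PrimeSpectrum.ext this
  obtain ⟨x, hxP, hxQ⟩ := key P Q hPQ
  obtain ⟨e, he, hx⟩ := h.exists_idem x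
  have heP : e ∈ P.asIdeal := (hx _).mp hxP
  have heQ : e ∉ Q.asIdeal := fun h' => hxQ ((hx _).mpr h')
  refine ⟨basicOpen (1 - e), basicOpen e, (basicOpen (1 - e)).2, (basicOpen e).2, ?_, ?_, ?_⟩
  · show 1 - e ∉ P.asIdeal
    intro h'
    exact P.2.ne_top ((Ideal.eq_top_iff_one _).mpr
      (by simpa using P.asIdeal.add_mem h' heP))
  · exact heQ
  · rw [Set.disjoint_left]
    intro S h1 h2
    have h1' : 1 - e ∉ S.asIdeal := h1
    have h2' : e ∉ S.asIdeal := h2
    have : e * (1 - e) ∈ S.asIdeal := by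
      have h0 : e * (1 - e) = 0 := by
        have := he.eq
        linear_combination -this
      rw [h0]; exact S.asIdeal.zero_mem
    rcases S.2.mem_or_mem this with h3 | h3
    · exact h2' h3
    · exact h1' h3

theorem AbsFlat.totallySeparated (h : AbsFlat R) : TotallySeparatedSpace (PrimeSpectrum R) := by
  have := h.t2
  infer_instance

/-- an element of all primes of a reduced ring is zero -/
theorem eq_zero_of_forall_mem [IsReduced R] {x : R} (h : ∀ P : PrimeSpectrum R, x ∈ P.asIdeal) :
    x = 0 := by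
  have : x ∈ nilradical R := by
    rw [nilradical_eq_sInf, Submodule.mem_sInf]
    intro P hP
    exact h ⟨P, hP⟩
  exact (mem_nilradical.mp this).eq_zero

/-- a clopen set of the spectrum is given by an idempotent -/
theorem exists_idem_of_clopen {s : Set (PrimeSpectrum R)} (hs : IsClopen s) :
    ∃ e : R, IsIdempotentElem e ∧ ∀ P : PrimeSpectrum R, P ∈ s ↔ 1 - e ∈ P.asIdeal := by
  obtain ⟨e, he, hse⟩ := exists_idempotent_basicOpen_eq_of_isClopen hs
  refine ⟨e, he, fun P => ?_⟩
  have h0 : e * (1 - e) = 0 := by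
    have := he.eq
    linear_combination -this
  have hmem : P ∈ s ↔ e ∉ P.asIdeal := by rw [hse]; rfl
  rw [hmem]
  constructor
  · intro h
    have : e * (1 - e) ∈ P.asIdeal := by rw [h0]; exact P.asIdeal.zero_mem
    exact (P.2.mem_or_mem this).resolve_left h
  · intro h h'
    exact P.2.ne_top ((Ideal.eq_top_iff_one _).mpr (by simpa using P.asIdeal.add_mem h h'))

end P025H720
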